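import Vale.Agent.P171.Factor

/-!
Boxes, cubic grids, occupation numbers.
-/

namespace Vale.Agent.P171

open MeasureTheory Filter Topology Finset
open scoped ENNReal Classical

lemma measurable_coord (c : Fin 3) : Measurable (fun x : Space => x c) := by fun_prop

lemma measurableSet_rect (s : Fin 3 → Set ℝ) (hs : ∀ c, MeasurableSet (s c)) :
    MeasurableSet {x : Space | ∀ c, x c ∈ s c} := by
  have : {x : Space | ∀ c, x c ∈ s c} = ⋂ c, (fun x : Space => x c) ⁻¹' (s c) := by
    ext x; simp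
  rw [this]
  exact MeasurableSet.iInter (fun c => measurable_coord c (hs c))

lemma volume_rect (s : Fin 3 → Set ℝ) (hs : ∀ c, MeasurableSet (s c)) :
    volume {x : Space | ∀ c, x c ∈ s c} = ∏ c, volume (s c) := by
  have : {x : Space | ∀ c, x c ∈ s c} = WithLp.ofLp ⁻¹' (Set.univ.pi s) := by
    ext x; simp
  rw [this, (PiLp.volume_preserving_ofLp (Fin 3)).measure_preimage
    (MeasurableSet.univ_pi hs).nullMeasurableSet, volume_pi_pi]

lemma measurableSet_box (L : ℝ) : MeasurableSet (box L) :=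
  measurableSet_rect (fun _ => Set.Icc 0 L) (fun _ => measurableSet_Icc)

lemma volume_box {L : ℝ} (hL : 0 ≤ L) : volume (box L) = ENNReal.ofReal (L ^ 3) := by
  have := volume_rect (fun _ => Set.Icc 0 L) (fun _ => measurableSet_Icc)
  simp only [Real.volume_Icc, sub_zero, Finset.prod_const, Finset.card_univ, Fintype.card_fin] at this
  rw [ENNReal.ofReal_pow hL]
  exact this

/-- label of the cube of the grid of side `l` shifted by `τ (1,1,1)` -/
noncomputable def lab (τ l : ℝ) (x : Space) : Fin 3 → ℤ := fun c => ⌊(x c - τ) / l⌋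

/-- a cube of the grid -/
def cell (τ l : ℝ) (k : Fin 3 → ℤ) : Set Space := {x | lab τ l x = k}

lemma cell_eq {τ l : ℝ} (hl : 0 < l) (k : Fin 3 → ℤ) :
    cell τ l k = {x : Space | ∀ c, x c ∈ Set.Ico (τ + l * k c) (τ + l * k c + l)} := by
  ext x
  simp only [cell, lab, Set.mem_ofPred_eq, funext_iff, Int.floor_eq_iff, Set.mem_Ico]
  refine forall_congr' (fun c => ?_)
  rw [le_div_iff₀ hl, div_lt_iff₀ hl]
  constructor <;> rintro ⟨h1, h2⟩ <;> constructor <;> linarith

lemma measurable_lab (τ l : ℝ) : Measurable (lab τ l) := by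
  refine measurable_pi_lambda _ (fun c => ?_)
  exact Int.measurable_floor.comp (((measurable_coord c).sub_const τ).div_const l)

lemma measurableSet_cell (τ l : ℝ) (k : Fin 3 → ℤ) : MeasurableSet (cell τ l k) :=
  measurable_lab τ l (measurableSet_singleton k)

lemma volume_cell {τ l : ℝ} (hl : 0 < l) (k : Fin 3 → ℤ) :
    volume (cell τ l k) = ENNReal.ofReal (l ^ 3) := by
  rw [cell_eq hl, volume_rect _ (fun _ => measurableSet_Ico)]
  simp [ENNReal.ofReal_pow hl.le]

lemma disjoint_cell (τ l : ℝ) {k k' : Fin 3 → ℤ} (h : k ≠ k') :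
    Disjoint (cell τ l k) (cell τ l k') := by
  rw [Set.disjoint_left]
  intro x hx hx'
  exact h (hx.symm.trans hx')

lemma dist_le_of_coord {x y : Space} {d : ℝ} (hd : 0 ≤ d) (h : ∀ c, |x c - y c| ≤ d) :
    dist x y ≤ 2 * d := by
  rw [EuclideanSpace.dist_eq, Real.sqrt_le_left (by linarith)]
  have : ∀ c, dist (x c) (y c) ^ 2 ≤ d ^ 2 := fun c => by
    rw [Real.dist_eq]; exact pow_le_pow_left₀ (abs_nonneg _) (h c) 2
  rw [Fin.sum_univ_three]
  nlinarith [this 0, this 1, this 2]

lemma dist_le_of_lab_eq {τ l : ℝ} (hl : 0 < l) {x y : Space} (h : lab τ l x = lab τ l y) :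
    dist x y ≤ 2 * l := by
  have hx : x ∈ cell τ l (lab τ l y) := h
  have hy : y ∈ cell τ l (lab τ l y) := rfl
  rw [cell_eq hl] at hx hy
  refine dist_le_of_coord hl.le (fun c => ?_)
  have h1 := hx c
  have h2 := hy c
  simp only [Set.mem_Ico] at h1 h2
  rw [abs_le]; constructor <;> linarith

lemma card_labels_le {τ l : ℝ} (hl : 0 < l) (T : Finset (Fin 3 → ℤ)) {Ω : Set Space}
    (hΩ : volume Ω ≠ ⊤) (h : ∀ k ∈ T, cell τ l k ⊆ Ω) :
    (T.card : ℝ) * l ^ 3 ≤ volume.real Ω := by
  have h1 : volume.real (⋃ k ∈ T, cell τ l k) = ∑ k ∈ T, volume.real (cell τ l k) := by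
    refine measureReal_biUnion_finset ?_ (fun k _ => measurableSet_cell τ l k) (fun k _ => ?_)
    · intro k _ k' _ hkk
      exact disjoint_cell τ l hkk
    · rw [volume_cell hl]; exact ENNReal.ofReal_ne_top
  have h2 : ∀ k, volume.real (cell τ l k) = l ^ 3 := fun k => by
    rw [Measure.real, volume_cell hl, ENNReal.toReal_ofReal (by positivity)]
  simp only [h2, Finset.sum_const, nsmul_eq_mul] at h1
  rw [← h1]
  exact measureReal_mono (Set.iUnion₂_subset h) hΩ

/-- indicator of lying in the same cube -/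
noncomputable def same (τ l : ℝ) (x y : Space) : ℝ := if lab τ l x = lab τ l y then 1 else 0

lemma same_nonneg (τ l : ℝ) (x y : Space) : 0 ≤ same τ l x y := by
  unfold same; split_ifs <;> norm_num

lemma same_le_one (τ l : ℝ) (x y : Space) : same τ l x y ≤ 1 := by
  unfold same; split_ifs <;> norm_num

lemma same_self (τ l : ℝ) (x : Space) : same τ l x x = 1 := by simp [same]

lemma same_comm (τ l : ℝ) (x y : Space) : same τ l x y = same τ l y x := by
  simp [same, eq_comm]

lemma measurable_same (τ l : ℝ) : Measurable (Function.uncurry (same τ l)) := by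
  have : Function.uncurry (same τ l) =
      fun p : Space × Space => if lab τ l p.1 = lab τ l p.2 then (1 : ℝ) else 0 := by
    funext p; rfl
  rw [this]
  refine Measurable.ite ?_ measurable_const measurable_const
  exact measurableSet_eq_fun ((measurable_lab τ l).comp measurable_fst)
    ((measurable_lab τ l).comp measurable_snd)

/-- sum of the squares of the occupation numbers -/
noncomputable def occ (τ l : ℝ) {N : ℕ} (x : Fin N → Space) : ℝ :=
  ∑ i, ∑ j, same τ l (x i) (x j)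

lemma occ_nonneg (τ l : ℝ) {N : ℕ} (x : Fin N → Space) : 0 ≤ occ τ l x :=
  Finset.sum_nonneg (fun _ _ => Finset.sum_nonneg (fun _ _ => same_nonneg _ _ _ _))

lemma double_sum_eq (f : Space → Space → ℝ) (hf : ∀ x y, f x y = f y x) {N : ℕ}
    (x : Fin N → Space) :
    ∑ i, ∑ j, f (x i) (x j) = ∑ i, f (x i) (x i) + 2 * pairSum f x := by
  have h := Finset.sum_sum_Ioi_add_eq_sum_sum_off_diag (fun i j : Fin N => f (x i) (x j))
  have h2 : ∀ i : Fin N, ∑ j, f (x i) (x j) = f (x i) (x i) + ∑ j ∈ ({i}ᶜ : Finset (Fin N)),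
      f (x j) (x i) := by
    intro i
    rw [← Finset.sum_add_sum_compl {i}, Finset.sum_singleton]
    congr 1
    exact Finset.sum_congr rfl (fun j _ => hf _ _)
  simp_rw [h2]
  rw [Finset.sum_add_distrib, ← h]
  congr 1
  unfold pairSum
  rw [Finset.mul_sum]
  refine Finset.sum_congr rfl (fun i _ => ?_)
  rw [Finset.mul_sum]
  refine Finset.sum_congr rfl (fun j _ => ?_)
  rw [hf (x j)]; ring

lemma occ_eq (τ l : ℝ) {N : ℕ} (x : Fin N → Space) :
    occ τ l x = N + 2 * pairSum (same τ l) x := by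
  unfold occ
  rw [double_sum_eq _ (same_comm τ l)]
  simp [same_self]

lemma pairSum_const (c : ℝ) {N : ℕ} (x : Fin N → Space) :
    2 * pairSum (fun _ _ => c) x = c * ((N : ℝ) ^ 2 - N) := by
  have := double_sum_eq (fun _ _ => c) (fun _ _ => rfl) x
  simp only [Finset.sum_const, Finset.card_univ, Fintype.card_fin, nsmul_eq_mul] at this
  linarith

lemma card_sq_le (τ l : ℝ) {N : ℕ} (x : Fin N → Space) (I : Finset (Fin N))
    (T : Finset (Fin 3 → ℤ)) (h : ∀ i ∈ I, lab τ l (x i) ∈ T) :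
    (I.card : ℝ) ^ 2 ≤ T.card * ∑ i ∈ I, ∑ j ∈ I, same τ l (x i) (x j) := by
  have h1 : (I.card : ℝ) = ∑ k ∈ T, ((I.filter (fun i => lab τ l (x i) = k)).card : ℝ) := by
    rw [Finset.card_eq_sum_card_fiberwise (f := fun i => lab τ l (x i)) (t := T)
      (fun i hi => h i hi)]
    push_cast; rfl
  have h2 : ∑ i ∈ I, ∑ j ∈ I, same τ l (x i) (x j) =
      ∑ k ∈ T, ((I.filter (fun i => lab τ l (x i) = k)).card : ℝ) ^ 2 := by
    rw [← Finset.sum_fiberwise_of_maps_to (g := fun i => lab τ l (x i)) h]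
    refine Finset.sum_congr rfl (fun k _ => ?_)
    have : ∀ i ∈ I.filter (fun i => lab τ l (x i) = k), ∑ j ∈ I, same τ l (x i) (x j) =
        ((I.filter (fun i => lab τ l (x i) = k)).card : ℝ) := by
      intro i hi
      have hi' := (Finset.mem_filter.mp hi).2
      unfold same
      rw [Finset.sum_boole, hi']
      congr 2
      ext j
      simp [eq_comm]
    rw [Finset.sum_congr rfl this, Finset.sum_const, nsmul_eq_mul, sq]
  rw [h2, h1]
  exact sq_sum_le_card_mul_sum_sq

/-- labels met by a box -/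
noncomputable def cover (l L : ℝ) : Finset (Fin 3 → ℤ) :=
  Fintype.piFinset (fun _ => Finset.Icc (-1) ⌊L / l⌋)

lemma lab_mem_cover {τ l L : ℝ} (hl : 0 < l) (hτ0 : 0 ≤ τ) (hτ : τ ≤ l) {x : Space}
    (hx : x ∈ box L) : lab τ l x ∈ cover l L := by
  unfold cover
  rw [Fintype.mem_piFinset]
  intro c
  rw [Finset.mem_Icc]
  obtain ⟨h0, h1⟩ := hx c
  constructor
  · unfold lab
    rw [Int.le_floor, le_div_iff₀ hl]
    push_cast; linarith
  · exact Int.floor_le_floor (div_le_div_of_nonneg_right (by linarith) hl.le)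

lemma card_cover_le {l L : ℝ} (hl : 0 < l) (hL : 0 ≤ L) :
    ((cover l L).card : ℝ) ≤ (L / l + 2) ^ 3 := by
  unfold cover
  rw [Fintype.card_piFinset, Finset.prod_const, Finset.card_univ, Fintype.card_fin, Int.card_Icc]
  push_cast
  have h0 : 0 ≤ ⌊L / l⌋ := Int.floor_nonneg.mpr (div_nonneg hL hl.le)
  have h1 : (((⌊L / l⌋ + 1 - -1).toNat : ℕ) : ℝ) = (⌊L / l⌋ : ℝ) + 2 := by
    have : (((⌊L / l⌋ + 1 - -1).toNat : ℕ) : ℤ) = ⌊L / l⌋ + 2 := by omega
    have h2 : (((⌊L / l⌋ + 1 - -1).toNat : ℕ) : ℝ) = ((((⌊L / l⌋ + 1 - -1).toNat : ℕ) : ℤ) : ℝ) := by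
      norm_cast
    rw [h2, this]; push_cast; ring
  rw [h1]
  have : (0 : ℝ) ≤ ⌊L / l⌋ := by exact_mod_cast h0
  exact pow_le_pow_left₀ (by linarith) (by linarith [Int.floor_le (L / l)]) 3

lemma sq_le_occ {L : ℝ} (hL : 2 ≤ L) {N : ℕ} (x : Fin N → Space) (hx : ∀ i, x i ∈ box L) :
    (N : ℝ) ^ 2 ≤ 8 * L ^ 3 * occ 0 1 x := by
  have h := card_sq_le 0 1 x Finset.univ (cover 1 L)
    (fun i _ => lab_mem_cover one_pos le_rfl zero_le_one (hx i))
  rw [Finset.card_univ, Fintype.card_fin] at h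
  refine h.trans (mul_le_mul_of_nonneg_right ?_ (occ_nonneg 0 1 x))
  refine (card_cover_le one_pos (by linarith)).trans ?_
  rw [div_one]
  calc (L + 2) ^ 3 ≤ (2 * L) ^ 3 := pow_le_pow_left₀ (by linarith) (by linarith) 3
    _ = 8 * L ^ 3 := by ring

lemma card_sep_le_one {D : ℝ} (hD : 0 < D) {J : ℕ} (hJ : 0 < J) {a b : ℝ} (hab : a ≤ b)
    (h : b - a < D) :
    ((Finset.range J).filter
      (fun t : ℕ => ⌊(a - t * D) / (J * D)⌋ ≠ ⌊(b - t * D) / (J * D)⌋)).card ≤ 1 := by
  have hJD : (0 : ℝ) < J * D := by positivity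
  have key : ∀ t : ℕ, ⌊(a - t * D) / (J * D)⌋ ≠ ⌊(b - t * D) / (J * D)⌋ →
      ∃ m : ℤ, a < ((m * J + t : ℤ) : ℝ) * D ∧ ((m * J + t : ℤ) : ℝ) * D ≤ b := by
    intro t ht
    refine ⟨⌊(b - t * D) / (J * D)⌋, ?_, ?_⟩
    · have h1 : ⌊(a - t * D) / (J * D)⌋ ≤ ⌊(b - t * D) / (J * D)⌋ :=
        Int.floor_le_floor (div_le_div_of_nonneg_right (by linarith) hJD.le)
      have h2 : ⌊(a - t * D) / (J * D)⌋ < ⌊(b - t * D) / (J * D)⌋ := lt_of_le_of_ne h1 ht
      rw [Int.floor_lt, div_lt_iff₀ hJD] at h2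
      push_cast; linarith
    · have := Int.floor_le ((b - t * D) / (J * D))
      rw [le_div_iff₀ hJD] at this
      push_cast; linarith
  rw [Finset.card_le_one]
  intro t ht t' ht'
  obtain ⟨ht1, ht2⟩ := Finset.mem_filter.mp ht
  obtain ⟨ht1', ht2'⟩ := Finset.mem_filter.mp ht'
  obtain ⟨m, hm1, hm2⟩ := key t ht2
  obtain ⟨m', hm1', hm2'⟩ := key t' ht2'
  have e1 : ((m * J + t : ℤ) : ℝ) < ((m' * J + t' : ℤ) : ℝ) + 1 := by
    by_contra hc
    push Not at hc
    nlinarith
  have e2 : ((m' * J + t' : ℤ) : ℝ) < ((m * J + t : ℤ) : ℝ) + 1 := by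
    by_contra hc
    push Not at hc
    nlinarith
  have e1' : (m * J + t : ℤ) < (m' * J + t' : ℤ) + 1 := by exact_mod_cast e1
  have e2' : (m' * J + t' : ℤ) < (m * J + t : ℤ) + 1 := by exact_mod_cast e2
  have e3 : (m * J + t : ℤ) = (m' * J + t' : ℤ) := by omega
  rw [Finset.mem_range] at ht1 ht1'
  have e4 : ((m * J + t : ℤ)) % J = t := by
    rw [add_comm, Int.add_mul_emod_self_right]
    exact Int.emod_eq_of_lt (by positivity) (by exact_mod_cast ht1)
  have e5 : ((m' * J + t' : ℤ)) % J = t' := by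
    rw [add_comm, Int.add_mul_emod_self_right]
    exact Int.emod_eq_of_lt (by positivity) (by exact_mod_cast ht1')
  have : (t : ℤ) = t' := by rw [← e4, ← e5, e3]
  exact_mod_cast this

/-- two points closer than `D` are separated by at most three of the `J` shifted grids -/
lemma sum_same_ge {D : ℝ} (hD : 0 < D) {J : ℕ} (hJ : 0 < J) {x y : Space} (h : dist x y < D) :
    (J : ℝ) - 3 ≤ ∑ t ∈ Finset.range J, same (t * D) (J * D) x y := by
  have hc : ∀ c : Fin 3, ((Finset.range J).filter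
      (fun t : ℕ => ⌊(x c - t * D) / (J * D)⌋ ≠ ⌊(y c - t * D) / (J * D)⌋)).card ≤ 1 := by
    intro c
    have hd : |x c - y c| < D := by
      have := PiLp.dist_apply_le x y c
      rw [Real.dist_eq] at this
      linarith
    rw [abs_lt] at hd
    rcases le_total (x c) (y c) with hxy | hxy
    · exact card_sep_le_one hD hJ hxy (by linarith)
    · have := card_sep_le_one hD hJ hxy (by linarith)
      simpa [ne_comm] using this
  have h3 : ((Finset.range J).filter
      (fun t : ℕ => ¬ lab (t * D) (J * D) x = lab (t * D) (J * D) y)).card ≤ 3 := by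
    calc _ ≤ (Finset.univ.biUnion (fun c : Fin 3 => (Finset.range J).filter
          (fun t : ℕ => ⌊(x c - t * D) / (J * D)⌋ ≠ ⌊(y c - t * D) / (J * D)⌋))).card := by
          refine Finset.card_le_card (fun t ht => ?_)
          obtain ⟨ht1, ht2⟩ := Finset.mem_filter.mp ht
          simp only [Finset.mem_biUnion, Finset.mem_univ, true_and, Finset.mem_filter]
          by_contra hcon
          push Not at hcon
          exact ht2 (funext (fun c => hcon c ht1))
      _ ≤ ∑ c : Fin 3, ((Finset.range J).filter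
          (fun t : ℕ => ⌊(x c - t * D) / (J * D)⌋ ≠ ⌊(y c - t * D) / (J * D)⌋)).card :=
          Finset.card_biUnion_le
      _ ≤ ∑ _c : Fin 3, 1 := Finset.sum_le_sum (fun c _ => hc c)
      _ = 3 := by simp
  unfold same
  rw [Finset.sum_boole]
  have h4 := Finset.card_filter_add_card_filter_not (s := Finset.range J)
    (fun t : ℕ => lab (t * D) (J * D) x = lab (t * D) (J * D) y)
  rw [Finset.card_range] at h4
  have h5 : J ≤ ((Finset.range J).filter
      (fun t : ℕ => lab (t * D) (J * D) x = lab (t * D) (J * D) y)).card + 3 := by omega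
  have h6 : (J : ℝ) ≤ (((Finset.range J).filter
      (fun t : ℕ => lab (t * D) (J * D) x = lab (t * D) (J * D) y)).card : ℝ) + 3 := by
    exact_mod_cast h5
  linarith

end Vale.Agent.P171
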