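import Mathlib

/-!
Definitions for problem P171: classical particles in three dimensions with a radial pair potential.
-/

namespace Vale.Agent.P171

open MeasureTheory Filter Topology

/-- Euclidean three-space. -/
abbrev Space : Type := EuclideanSpace ℝ (Fin 3)

/-- The energy `U_N (x_1, ..., x_N)`: the sum of `φ |x_i - x_j|` over the pairs `i < j`. -/
noncomputable def energy (φ : ℝ → ℝ) {N : ℕ} (x : Fin N → Space) : ℝ :=
  ∑ i : Fin N, ∑ j ∈ Finset.Ioi i, φ (dist (x i) (x j))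

/-- Stability: `U_N ≥ - B N` for all `N` and all configurations of distinct points. -/
def Stable (φ : ℝ → ℝ) : Prop :=
  ∃ B : ℝ, ∀ (N : ℕ) (x : Fin N → Space), Function.Injective x → -(B * N) ≤ energy φ x

/-- Temperedness: `φ r ≤ C r ^ (-3 - ε)` for all `r ≥ R₀`. -/
def Tempered (φ : ℝ → ℝ) : Prop :=
  ∃ C ε R₀ : ℝ, 0 < C ∧ 0 < ε ∧ 0 < R₀ ∧ ∀ r : ℝ, R₀ ≤ r → φ r ≤ C * r ^ (-3 - ε)

/-- The cube `[0, L]^3`. -/
def box (L : ℝ) : Set Space := {x | ∀ c : Fin 3, 0 ≤ x c ∧ x c ≤ L}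

/-- The canonical partition function `Z_{L,N}(β)`. -/
noncomputable def canonicalZ (φ : ℝ → ℝ) (β L : ℝ) (N : ℕ) : ℝ :=
  (1 / (N.factorial : ℝ)) *
    ∫ x in Set.univ.pi (fun _ : Fin N => box L), Real.exp (-β * energy φ x)

/-- The grand canonical partition function: the sum over `N` of `z ^ N Z_{L,N}(β)`. -/
noncomputable def grandZ (φ : ℝ → ℝ) (β z L : ℝ) : ℝ :=
  ∑' N : ℕ, z ^ N * canonicalZ φ β L N

/-- `p z` is the infinite volume pressure (times `β`) at activity `z`, for every `z > 0`. -/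
def IsPressure (φ : ℝ → ℝ) (β : ℝ) (p : ℝ → ℝ) : Prop :=
  ∀ z : ℝ, 0 < z →
    Tendsto (fun L : ℝ => Real.log (grandZ φ β z L) / L ^ 3) atTop (𝓝 (p z))

end Vale.Agent.P171
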