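import Vale.Agent.P171.Gas

/-!
Sub- and supermultiplicativity over families of regions; translation invariance.
-/

namespace Vale.Agent.P171

open MeasureTheory Filter Topology Finset
open scoped ENNReal Classical

lemma pairSum_mono {Λ : Set Space} {ψ ψ' : Space → Space → ℝ}
    (h : ∀ x ∈ Λ, ∀ y ∈ Λ, ψ x y ≤ ψ' x y) {N : ℕ} (x : Fin N → Space) (hx : ∀ i, x i ∈ Λ) :
    pairSum ψ x ≤ pairSum ψ' x :=
  Finset.sum_le_sum (fun i _ => Finset.sum_le_sum (fun j _ => h _ (hx i) _ (hx j)))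

lemma gc_pair_mono {Λ : Set Space} (hΛ : MeasurableSet Λ) (μ : ℝ) {ψ ψ' : Space → Space → ℝ}
    (h : ∀ x ∈ Λ, ∀ y ∈ Λ, ψ x y ≤ ψ' x y) : gc Λ (pairH μ ψ') ≤ gc Λ (pairH μ ψ) :=
  gc_mono hΛ (fun N x hx => by
    unfold pairH; linarith [pairSum_mono h x hx])

lemma gc_pair_congr {Λ : Set Space} (hΛ : MeasurableSet Λ) (μ : ℝ) {ψ ψ' : Space → Space → ℝ}
    (h : ∀ x ∈ Λ, ∀ y ∈ Λ, ψ x y = ψ' x y) : gc Λ (pairH μ ψ') = gc Λ (pairH μ ψ) :=
  le_antisymm (gc_pair_mono hΛ μ (fun x hx y hy => (h x hx y hy).le))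
    (gc_pair_mono hΛ μ (fun x hx y hy => (h x hx y hy).ge))

/-- the interaction with the cross terms between `A` and its complement removed -/
noncomputable def cut (A : Set Space) (ψ : Space → Space → ℝ) : Space → Space → ℝ :=
  fun x y => if (x ∈ A ↔ y ∈ A) then ψ x y else 0

lemma measurable_cut {A : Set Space} (hA : MeasurableSet A) {ψ : Space → Space → ℝ}
    (hψ : Measurable (Function.uncurry ψ)) : Measurable (Function.uncurry (cut A ψ)) := by
  have : Function.uncurry (cut A ψ) =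
      fun p : Space × Space => if (p.1 ∈ A ↔ p.2 ∈ A) then Function.uncurry ψ p else 0 := by
    funext p; rfl
  rw [this]
  refine Measurable.ite ?_ hψ measurable_const
  have h1 : MeasurableSet {p : Space × Space | p.1 ∈ A} := measurable_fst hA
  have h2 : MeasurableSet {p : Space × Space | p.2 ∈ A} := measurable_snd hA
  exact MeasurableSet.iff h1 h2

lemma gc_cut {A B : Set Space} (hA : MeasurableSet A) (hB : MeasurableSet B)
    (hd : Disjoint A B) (μ : ℝ) {ψ : Space → Space → ℝ} (hψ : Measurable (Function.uncurry ψ)) :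
    gc (A ∪ B) (pairH μ (cut A ψ)) = gc A (pairH μ ψ) * gc B (pairH μ ψ) := by
  rw [gc_union_eq hA hB hd μ (measurable_cut hA hψ)]
  · congr 1
    · exact gc_pair_congr hA μ (fun x hx y hy => by simp [cut, hx, hy])
    · refine gc_pair_congr hB μ (fun x hx y hy => ?_)
      have hx' : x ∉ A := fun h => Set.disjoint_left.mp hd h hx
      have hy' : y ∉ A := fun h => Set.disjoint_left.mp hd h hy
      simp [cut, hx', hy']
  · intro x hx y hy
    have hy' : y ∉ A := fun h => Set.disjoint_left.mp hd h hy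
    simp [cut, hx, hy']

lemma gc_union_le {A B : Set Space} (hA : MeasurableSet A) (hB : MeasurableSet B)
    (hd : Disjoint A B) (μ : ℝ) {ψ : Space → Space → ℝ} (hψ : Measurable (Function.uncurry ψ))
    (h : ∀ x ∈ A, ∀ y ∈ B, 0 ≤ ψ x y ∧ 0 ≤ ψ y x) :
    gc (A ∪ B) (pairH μ ψ) ≤ gc A (pairH μ ψ) * gc B (pairH μ ψ) := by
  rw [← gc_cut hA hB hd μ hψ]
  refine gc_pair_mono (hA.union hB) μ (fun x hx y hy => ?_)
  unfold cut
  split_ifs with hxy
  · exact le_rfl
  · rcases hx with hx | hx <;> rcases hy with hy | hy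
    · exact absurd (by simp [hx, hy]) hxy
    · exact (h x hx y hy).1
    · exact (h y hy x hx).2
    · have hx' : x ∉ A := fun h => Set.disjoint_left.mp hd h hx
      have hy' : y ∉ A := fun h => Set.disjoint_left.mp hd h hy
      exact absurd (by simp [hx', hy']) hxy

lemma gc_union_ge {A B : Set Space} (hA : MeasurableSet A) (hB : MeasurableSet B)
    (hd : Disjoint A B) (μ : ℝ) {ψ : Space → Space → ℝ} (hψ : Measurable (Function.uncurry ψ))
    (h : ∀ x ∈ A, ∀ y ∈ B, ψ x y ≤ 0 ∧ ψ y x ≤ 0) :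
    gc A (pairH μ ψ) * gc B (pairH μ ψ) ≤ gc (A ∪ B) (pairH μ ψ) := by
  rw [← gc_cut hA hB hd μ hψ]
  refine gc_pair_mono (hA.union hB) μ (fun x hx y hy => ?_)
  unfold cut
  split_ifs with hxy
  · exact le_rfl
  · rcases hx with hx | hx <;> rcases hy with hy | hy
    · exact absurd (by simp [hx, hy]) hxy
    · exact (h x hx y hy).1
    · exact (h y hy x hx).2
    · have hx' : x ∉ A := fun h => Set.disjoint_left.mp hd h hx
      have hy' : y ∉ A := fun h => Set.disjoint_left.mp hd h hy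
      exact absurd (by simp [hx', hy']) hxy

lemma gc_empty (μ : ℝ) (ψ : Space → Space → ℝ) : gc ∅ (pairH μ ψ) = 1 := by
  unfold gc
  rw [tsum_eq_single 0, term_pairH_zero]
  intro N hN
  obtain ⟨M, rfl⟩ := Nat.exists_eq_succ_of_ne_zero hN
  unfold term
  have : Set.univ.pi (fun _ : Fin (M + 1) => (∅ : Set Space)) = ∅ :=
    Set.univ_pi_eq_empty (i := 0) rfl
  simp [this]

lemma gc_biUnion_le {ι : Type} (F : Finset ι) (A : ι → Set Space) (hA : ∀ c, MeasurableSet (A c))
    (μ : ℝ) {ψ : Space → Space → ℝ} (hψ : Measurable (Function.uncurry ψ))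
    (hd : ∀ c c', c ≠ c' → Disjoint (A c) (A c'))
    (h : ∀ c c', c ≠ c' → ∀ x ∈ A c, ∀ y ∈ A c', 0 ≤ ψ x y) :
    gc (⋃ c ∈ F, A c) (pairH μ ψ) ≤ ∏ c ∈ F, gc (A c) (pairH μ ψ) := by
  induction F using Finset.induction_on with
  | empty => simp [gc_empty]
  | insert a s ha ih =>
    rw [Finset.set_biUnion_insert, Finset.prod_insert ha]
    refine (gc_union_le (hA a) (Finset.measurableSet_biUnion _ (fun c _ => hA c)) ?_ μ hψ ?_).trans
      (by gcongr)
    · rw [Set.disjoint_iUnion₂_right]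
      intro c hc
      exact hd a c (fun h => ha (h ▸ hc))
    · intro x hx y hy
      simp only [Set.mem_iUnion] at hy
      obtain ⟨c, hc, hy⟩ := hy
      have hne : a ≠ c := fun h => ha (h ▸ hc)
      exact ⟨h a c hne x hx y hy, h c a hne.symm y hy x hx⟩

lemma gc_biUnion_ge {ι : Type} (F : Finset ι) (A : ι → Set Space) (hA : ∀ c, MeasurableSet (A c))
    (μ : ℝ) {ψ : Space → Space → ℝ} (hψ : Measurable (Function.uncurry ψ))
    (hd : ∀ c c', c ≠ c' → Disjoint (A c) (A c'))
    (h : ∀ c c', c ≠ c' → ∀ x ∈ A c, ∀ y ∈ A c', ψ x y ≤ 0) :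
    ∏ c ∈ F, gc (A c) (pairH μ ψ) ≤ gc (⋃ c ∈ F, A c) (pairH μ ψ) := by
  induction F using Finset.induction_on with
  | empty => simp [gc_empty]
  | insert a s ha ih =>
    rw [Finset.set_biUnion_insert, Finset.prod_insert ha]
    refine le_trans (by gcongr)
      (gc_union_ge (hA a) (Finset.measurableSet_biUnion _ (fun c _ => hA c)) ?_ μ hψ ?_)
    · rw [Set.disjoint_iUnion₂_right]
      intro c hc
      exact hd a c (fun h => ha (h ▸ hc))
    · intro x hx y hy
      simp only [Set.mem_iUnion] at hy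
      obtain ⟨c, hc, hy⟩ := hy
      have hne : a ≠ c := fun h => ha (h ▸ hc)
      exact ⟨h a c hne x hx y hy, h c a hne.symm y hy x hx⟩

/-- translation invariance -/
lemma gc_translate {Λ : Set Space} (hΛ : MeasurableSet Λ) (τ : Space) (μ : ℝ)
    {ψ : Space → Space → ℝ} (h : ∀ x y, ψ (x + τ) (y + τ) = ψ x y) :
    gc {x | x + τ ∈ Λ} (pairH μ ψ) = gc Λ (pairH μ ψ) := by
  refine tsum_congr (fun N => ?_)
  unfold term
  congr 1
  have hΛ' : MeasurableSet {x : Space | x + τ ∈ Λ} := (measurable_add_const τ) hΛ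
  symm
  rw [← lintegral_indicator (measurableSet_conf hΛ N),
    ← lintegral_add_right_eq_self _ (fun _ : Fin N => τ),
    ← lintegral_indicator (measurableSet_conf hΛ' N)]
  symm
  refine lintegral_congr (fun x => ?_)
  have hp : pairH μ ψ N (x + fun _ => τ) = pairH μ ψ N x := by
    simp [pairH, pairSum, h]
  by_cases hx : x ∈ Set.univ.pi (fun _ : Fin N => {x : Space | x + τ ∈ Λ})
  · rw [Set.indicator_of_mem hx, Set.indicator_of_mem, hp]
    intro i _
    exact hx i trivial
  · rw [Set.indicator_of_notMem hx, Set.indicator_of_notMem]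
    intro hx'
    exact hx (fun i _ => hx' i trivial)

end Vale.Agent.P171
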