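import Vale.Agent.P171.Scales

/-!
The limiting potential has a kink; translation to the real valued definitions.
-/

namespace Vale.Agent.P171

open MeasureTheory Filter Topology Finset Metric
open scoped ENNReal Classical

lemma P_phi_le (n : ℕ) (μ : ℝ) : P (phi n) μ ≤ P phiInf μ :=
  P_mono good_phiInf (good_phi n) le_rfl (fun r _ => by
    simp only [phiInf, phi]; linarith [psi_add_tail n r, tail_nonneg n r])

lemma P_phiInf_le (n : ℕ) {μ : ℝ} (hμ : μ ≤ 2 * al) :
    P phiInf μ ≤ P (phi n) μ + (1 / 2) ^ n * C0 := by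
  have h2 : (0 : ℝ) < 2 ^ n := by positivity
  have hb := (budget_psi n).add (budget_tail n) zero_le_one h2.le
  have e0 : (2 : ℝ) ^ n * (1 / 2) ^ n = 1 := by rw [← mul_pow]; norm_num
  have hg := good_of_budget Kc_nonneg (((continuous_psi n).measurable.const_mul 1).add
    ((continuous_tail n).measurable.const_mul (2 ^ n)))
    (fun r => add_nonneg (by simpa using psi_nonneg n r) (mul_nonneg h2.le (tail_nonneg n r))) hb
    (by
      have : (2 : ℝ) ^ n * (8 * al * (1 / 2) ^ n) = 8 * al := by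
        calc (2 : ℝ) ^ n * (8 * al * (1 / 2) ^ n) = 8 * al * (2 ^ n * (1 / 2) ^ n) := by ring
          _ = 8 * al := by rw [e0, mul_one]
      rw [this]; unfold Kc; linarith [al_pos])
  have hl0 : (0 : ℝ) ≤ (1 / 2) ^ n := by positivity
  have hl1 : ((1 : ℝ) / 2) ^ n ≤ 1 := pow_le_one₀ (by norm_num) (by norm_num)
  have h := P_holder (good_phi n) hg good_phiInf (μ₀ := μ) (μ₁ := μ) (μ := μ) hl0 hl1
    (le_of_eq (by ring)) (fun r _ => by
      simp only [phiInf, phi, Pi.add_apply]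
      have e1 : (1 / 2) ^ n * (2 ^ n * tail n r) = tail n r := by
        rw [← mul_assoc, mul_comm ((1 / 2 : ℝ) ^ n), e0, one_mul]
      rw [← psi_add_tail n r]
      linarith)
  have h3 := hg.P_le μ
  have h4 : Real.exp (μ + Kc / 2) ≤ C0 := Real.exp_le_exp.mpr (by linarith [al_pos])
  have h5 := mul_le_mul_of_nonneg_left (h3.trans h4) hl0
  have h6 := mul_nonneg hl0 ((good_phi n).P_nonneg μ)
  linarith

lemma exists_kink_inf : ∃ μ, ∀ t, 0 < t →
    1 / 256 * t ≤ P phiInf (μ + t) + P phiInf (μ - t) - 2 * P phiInf μ := by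
  choose m hm1 hm2 using exists_kink
  have hm1' : ∀ n, m n ≤ 2 * al := fun n => by
    have := sum_cp_le 0 n
    simp only [add_zero, pow_zero, mul_one] at this
    linarith [hm1 n]
  have hsec : ∀ n t, cp n / 512 ≤ t →
      1 / 256 * t ≤ P (phi n) (m n + t) + P (phi n) (m n - t) - 2 * P (phi n) (m n) := by
    intro n t ht
    have hδ : 0 < cp n / 512 := by linarith [cp_pos n]
    refine secdiff_mono (good_phi n).convexOn_P hδ ht (le_trans ?_ (hm2 n))
    refine mul_le_mul_of_nonneg_right ?_ hδ.le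
    unfold Dl
    have : (0 : ℝ) ≤ 1 / 256 * (1 / 2) ^ n := by positivity
    linarith
  have hlow : ∀ n, -1 - 256 - Kc / 2 ≤ m n := by
    intro n
    have h1 := hsec n 256 (by have := cp_le_al n; unfold al at this; linarith)
    have h2 := (good_phi n).P_le (m n + 256)
    have h3 := (good_phi n).monotone_P (show m n - 256 ≤ m n by linarith)
    have h4 := (good_phi n).P_nonneg (m n)
    have h5 : 1 ≤ Real.exp (m n + 256 + Kc / 2) := by linarith
    rw [Real.one_le_exp_iff] at h5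
    linarith
  obtain ⟨μ, _, g, hg, hlim⟩ := isCompact_Icc.tendsto_subseq
    (x := m) (fun n => (⟨hlow n, hm1' n⟩ : m n ∈ Set.Icc (-1 - 256 - Kc / 2) (2 * al)))
  refine ⟨μ, fun t ht => ?_⟩
  have hc := good_phiInf.continuous_P
  have hgeo : Tendsto (fun n => ((1 : ℝ) / 2) ^ g n) atTop (𝓝 0) :=
    (tendsto_pow_atTop_nhds_zero_of_lt_one (by norm_num) (by norm_num)).comp hg.tendsto_atTop
  have h1 : Tendsto (fun n => P phiInf (m (g n) + t) + P phiInf (m (g n) - t) -
      2 * P phiInf (m (g n)) + 2 * ((1 / 2) ^ g n * C0)) atTop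
      (𝓝 (P phiInf (μ + t) + P phiInf (μ - t) - 2 * P phiInf μ + 2 * (0 * C0))) := by
    refine Tendsto.add (Tendsto.sub (Tendsto.add ?_ ?_) ?_) ((hgeo.mul_const C0).const_mul 2)
    · exact (hc.tendsto _).comp (hlim.add_const t)
    · exact (hc.tendsto _).comp (hlim.sub_const t)
    · exact ((hc.tendsto _).comp hlim).const_mul 2
  rw [zero_mul, mul_zero, add_zero] at h1
  refine ge_of_tendsto h1 ?_
  have h2 : Tendsto (fun n => al * ((1 : ℝ) / 2) ^ g n) atTop (𝓝 (al * 0)) := hgeo.const_mul al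
  rw [mul_zero] at h2
  filter_upwards [h2.eventually (gt_mem_nhds ht)] with n hn
  have h3 := hsec (g n) t (by linarith [cp_le (g n), cp_pos (g n)])
  linarith [P_phi_le (g n) (m (g n) + t), P_phi_le (g n) (m (g n) - t), P_phiInf_le (g n) (hm1' (g n))]

lemma continuous_phiInf : Continuous phiInf :=
  (continuous_core.const_mul Kc).sub (continuous_tail 0)

lemma tail_le (r : ℝ) : tail 0 r ≤ 2 * al := by
  refine Real.tsum_le_of_sum_range_le (fun k => term_nonneg _ r) (fun m => ?_)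
  have := sum_cp_le 0 m
  simp only [pow_zero, mul_one] at this
  exact (Finset.sum_le_sum (fun k _ => term_le _ r)).trans this

lemma phiInf_bounded (r : ℝ) (hr : 0 ≤ r) : |phiInf r| ≤ 3 * Kc + 2 * al := by
  have h1 : core r ≤ 3 := max_le (by norm_num) (by linarith)
  have h2 := mul_le_mul_of_nonneg_left h1 Kc_nonneg
  have h3 := mul_nonneg Kc_nonneg (core_nonneg r)
  unfold phiInf
  rw [abs_le]
  constructor <;> linarith [tail_le r, tail_nonneg 0 r, al_pos, Kc_nonneg]

lemma term_decay (k : ℕ) {r : ℝ} (hr : 0 < r) :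
    cp k * kern (Rk k) r ≤ al * Y 0 ^ 2 * r ^ (-3 - 1 / 28 : ℝ) * (1 / 2) ^ k := by
  have hY := Y_pos k
  have hY0 := Y_pos 0
  have ha := al_pos
  by_cases h : 2 * Rk k ≤ r
  · rw [kern_eq_zero h hr.le, mul_zero]; positivity
  have h1 : r ≤ Y k ^ 28 := by unfold Rk at h; linarith
  have h2 : (Y k ^ 28) ^ (-3 - 1 / 28 : ℝ) ≤ r ^ (-3 - 1 / 28 : ℝ) :=
    Real.rpow_le_rpow_of_nonpos hr h1 (by norm_num)
  have h3 : (Y k ^ 28) ^ (-3 - 1 / 28 : ℝ) = (Y k ^ 85)⁻¹ := by
    rw [← Real.rpow_natCast, ← Real.rpow_mul hY.le, ← Real.rpow_natCast, ← Real.rpow_neg hY.le]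
    norm_num
  rw [h3] at h2
  have h4 : kern (Rk k) r ≤ 2 / Y k ^ 84 := by
    refine (kern_le (Rk_pos k) r).trans ?_
    rw [div_le_div_iff₀ (vB_pos (Rk_pos k)) (by positivity)]
    unfold vB Rk
    have : 0 < Y k ^ 84 := by positivity
    nlinarith [Real.pi_gt_three]
  have h5 : 2 / Y k ≤ (1 / 2) ^ k := by
    rw [one_div_pow, div_le_div_iff₀ hY (by positivity)]
    linarith [Y_ge_pow k]
  calc cp k * kern (Rk k) r ≤ cp k * (2 / Y k ^ 84) := mul_le_mul_of_nonneg_left h4 (cp_pos k).le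
    _ = al * Y 0 ^ 2 * (Y k ^ 85)⁻¹ * (2 / Y k) := by unfold cp; field_simp
    _ ≤ _ := by gcongr

lemma phiInf_decay {r : ℝ} (hr : 3 ≤ r) :
    |phiInf r| ≤ 2 * al * Y 0 ^ 2 * r ^ (-3 - 1 / 28 : ℝ) := by
  have hr0 : 0 < r := by linarith
  unfold phiInf
  rw [core_eq_zero hr, mul_zero, zero_sub, abs_neg, abs_of_nonneg (tail_nonneg 0 r)]
  refine Real.tsum_le_of_sum_range_le (fun k => term_nonneg _ r) (fun m => ?_)
  refine (Finset.sum_le_sum (fun k _ => term_decay (k + 0) hr0)).trans ?_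
  simp only [add_zero]
  rw [← Finset.mul_sum]
  have h1 := mul_le_mul_of_nonneg_left (sum_geometric_two_le m)
    (show 0 ≤ al * Y 0 ^ 2 * r ^ (-3 - 1 / 28 : ℝ) by have := al_pos; positivity)
  linarith

lemma Good.integrableOn {φ : ℝ → ℝ} {B : ℝ} (h : Good φ B) {L : ℝ} (hL : 0 ≤ L) (N : ℕ) :
    IntegrableOn (fun x : Fin N → Space => Real.exp (-1 * energy φ x))
      (Set.univ.pi (fun _ : Fin N => box L)) := by
  refine Measure.integrableOn_of_bounded (M := Real.exp (B * N)) ?_ ?_ ?_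
  · rw [volume_pi_pi, Finset.prod_const, volume_box hL]
    exact ENNReal.pow_ne_top ENNReal.ofReal_ne_top
  · exact ((measurable_pairSum (measurable_rad h.meas) N).const_mul (-1)).exp.aestronglyMeasurable
  · refine Eventually.of_forall (fun x => ?_)
    rw [Real.norm_of_nonneg (Real.exp_pos _).le, Real.exp_le_exp]
    have : energy φ x = pairSum (rad φ) x := rfl
    linarith [h.stab N x]

lemma canonicalZ_nonneg (φ : ℝ → ℝ) (β L : ℝ) (N : ℕ) : 0 ≤ canonicalZ φ β L N :=
  mul_nonneg (by positivity) (integral_nonneg (fun _ => (Real.exp_pos _).le))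

lemma Good.term_eq {φ : ℝ → ℝ} {B : ℝ} (h : Good φ B) {z L : ℝ} (hz : 0 < z) (hL : 0 ≤ L) (N : ℕ) :
    term (box L) (pairH (Real.log z) (rad φ)) N = ENNReal.ofReal (z ^ N * canonicalZ φ 1 L N) := by
  have e1 : pairH (Real.log z) (rad φ) = fun (N : ℕ) x => -1 * energy φ x + Real.log z * N := by
    funext N x
    have : energy φ x = pairSum (rad φ) x := rfl
    unfold pairH; rw [this]; ring
  rw [e1, term_add_const (box L) (fun N x => -1 * energy φ x) (fun N => Real.log z * N) N,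
    mul_comm (Real.log z), Real.exp_nat_mul, Real.exp_log hz, ENNReal.ofReal_mul (by positivity)]
  congr 1
  unfold term canonicalZ
  rw [ENNReal.ofReal_mul (by positivity), ofReal_integral_eq_lintegral_ofReal (h.integrableOn hL N)
    (Eventually.of_forall (fun _ => (Real.exp_pos _).le)), one_div,
    ENNReal.ofReal_inv_of_pos (by positivity), ENNReal.ofReal_natCast]

lemma Good.summable {φ : ℝ → ℝ} {B : ℝ} (h : Good φ B) {z L : ℝ} (hz : 0 < z) (hL : 0 ≤ L) :
    Summable (fun N => z ^ N * canonicalZ φ 1 L N) := by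
  have h1 := ENNReal.summable_toReal (h.Xi_ne_top (Real.log z) hL)
  simp_rw [h.term_eq hz hL] at h1
  refine h1.congr (fun N => ?_)
  exact ENNReal.toReal_ofReal (mul_nonneg (by positivity) (canonicalZ_nonneg _ _ _ _))

lemma Good.log_grandZ {φ : ℝ → ℝ} {B : ℝ} (h : Good φ B) {z L : ℝ} (hz : 0 < z) (hL : 0 ≤ L) :
    Real.log (grandZ φ 1 z L) = lp φ (Real.log z) L := by
  unfold lp Xi gc grandZ
  simp_rw [h.term_eq hz hL]
  rw [← ENNReal.ofReal_tsum_of_nonneg
    (fun N => mul_nonneg (by positivity) (canonicalZ_nonneg _ _ _ _)) (h.summable hz hL),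
    ENNReal.toReal_ofReal
      (tsum_nonneg (fun N => mul_nonneg (by positivity) (canonicalZ_nonneg _ _ _ _)))]

lemma Good.isPressure {φ : ℝ → ℝ} {B : ℝ} (h : Good φ B) :
    IsPressure φ 1 (fun z => P φ (Real.log z)) := by
  intro z hz
  refine (h.tendsto_P (Real.log z)).congr' ?_
  filter_upwards [eventually_ge_atTop 0] with L hL
  rw [h.log_grandZ hz hL]

theorem phase_transition :
    ∃ φ : ℝ → ℝ, Continuous φ ∧ (∃ M : ℝ, ∀ r : ℝ, 0 ≤ r → |φ r| ≤ M) ∧
      Stable φ ∧ Tempered φ ∧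
      (∃ C : ℝ, ∀ r : ℝ, 3 ≤ r → |φ r| ≤ C * r ^ (-3 - 1 / 28 : ℝ)) ∧
      ∃ β : ℝ, 0 < β ∧
        (∀ (L : ℝ) (N : ℕ), 0 ≤ L → IntegrableOn
          (fun x : Fin N → Space => Real.exp (-β * energy φ x))
          (Set.univ.pi (fun _ : Fin N => box L))) ∧
        (∀ z L : ℝ, 0 < z → 0 ≤ L → Summable (fun N : ℕ => z ^ N * canonicalZ φ β L N)) ∧
        ∃ p : ℝ → ℝ, IsPressure φ β p ∧ ∃ z₀ : ℝ, 0 < z₀ ∧ ¬ DifferentiableAt ℝ p z₀ := by
  refine ⟨phiInf, continuous_phiInf, ⟨_, phiInf_bounded⟩,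
    ⟨Kc / 2, fun N x _ => good_phiInf.stab N x⟩,
    ⟨1, 1, 3, one_pos, one_pos, by norm_num, fun r hr => ?_⟩, ⟨_, fun r hr => phiInf_decay hr⟩,
    1, one_pos, fun L N hL => good_phiInf.integrableOn hL N,
    fun z L hz hL => good_phiInf.summable hz hL, _, good_phiInf.isPressure, ?_⟩
  · refine (good_phiInf.attr r hr).trans ?_
    have : 0 < r := by linarith
    positivity
  · obtain ⟨μ, hμ⟩ := exists_kink_inf
    refine ⟨Real.exp μ, Real.exp_pos μ, fun hd => ?_⟩
    refine not_differentiableAt_of_secdiff (by norm_num) hμ ?_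
    have := hd.comp μ Real.differentiableAt_exp
    simpa [Function.comp_def] using this

end Vale.Agent.P171
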