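import Vale.Agent.P171.Defs

/-!
Grand canonical integrals with values in `ℝ≥0∞`: monotonicity, Hölder, factorization.
-/

namespace Vale.Agent.P171

open MeasureTheory Filter Topology Finset
open scoped ENNReal

/-- weighted configuration integral -/
noncomputable def Zw (u : Space → ℝ≥0∞) (k : Space → Space → ℝ≥0∞) (N : ℕ) : ℝ≥0∞ :=
  ∫⁻ x : Fin N → Space, (∏ i, u (x i)) * ∏ i, ∏ j ∈ Ioi i, k (x i) (x j)

lemma measurable_Zw_integrand {α : Type} [MeasurableSpace α] (u : α → Space → ℝ≥0∞)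
    (k : Space → Space → ℝ≥0∞) (hu : Measurable (Function.uncurry u))
    (hk : Measurable (Function.uncurry k)) (N : ℕ) :
    Measurable (fun p : α × (Fin N → Space) =>
      (∏ i, u p.1 (p.2 i)) * ∏ i, ∏ j ∈ Ioi i, k (p.2 i) (p.2 j)) := by
  refine Measurable.mul ?_ ?_
  · refine Finset.measurable_prod _ (fun i _ => ?_)
    exact hu.comp (measurable_fst.prodMk ((measurable_pi_apply i).comp measurable_snd))
  · refine Finset.measurable_prod _ (fun i _ => Finset.measurable_prod _ (fun j _ => ?_))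
    have h2 : Measurable (fun p : α × (Fin N → Space) => (p.2 i, p.2 j)) := by fun_prop
    exact hk.comp h2

lemma measurable_Zw {α : Type} [MeasurableSpace α] (u : α → Space → ℝ≥0∞)
    (k : Space → Space → ℝ≥0∞) (hu : Measurable (Function.uncurry u))
    (hk : Measurable (Function.uncurry k)) (N : ℕ) :
    Measurable (fun a => Zw (u a) k N) := by
  unfold Zw
  exact (measurable_Zw_integrand u k hu hk N).lintegral_prod_right'

lemma Zw_zero (u : Space → ℝ≥0∞) (k : Space → Space → ℝ≥0∞) : Zw u k 0 = 1 := by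
  simp [Zw, volume_pi]

lemma Zw_succ (u : Space → ℝ≥0∞) (k : Space → Space → ℝ≥0∞) (hu : Measurable u)
    (hk : Measurable (Function.uncurry k)) (N : ℕ) :
    Zw u k (N + 1) = ∫⁻ y, u y * Zw (fun x => u x * k y x) k N := by
  have hmp := (measurePreserving_piFinSuccAbove (fun _ : Fin (N + 1) => (volume : Measure Space)) 0).symm
  unfold Zw
  rw [volume_pi, ← hmp.lintegral_comp_emb (MeasurableEquiv.measurableEmbedding _)]
  have hm : Measurable (fun p : Space × (Fin N → Space) =>
      u p.1 * ((∏ i, (u (p.2 i) * k p.1 (p.2 i))) * ∏ i, ∏ j ∈ Ioi i, k (p.2 i) (p.2 j))) := by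
    refine (hu.comp measurable_fst).mul ?_
    exact measurable_Zw_integrand (fun y x => u x * k y x) k
      ((hu.comp measurable_snd).mul hk) hk N
  have : ∀ p : Space × (Fin N → Space),
      ((∏ i, u ((MeasurableEquiv.piFinSuccAbove (fun _ : Fin (N + 1) => Space) 0).symm p i)) *
        ∏ i, ∏ j ∈ Ioi i, k ((MeasurableEquiv.piFinSuccAbove (fun _ : Fin (N + 1) => Space) 0).symm p i)
          ((MeasurableEquiv.piFinSuccAbove (fun _ : Fin (N + 1) => Space) 0).symm p j)) =
      u p.1 * ((∏ i, (u (p.2 i) * k p.1 (p.2 i))) * ∏ i, ∏ j ∈ Ioi i, k (p.2 i) (p.2 j)) := by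
    intro p
    simp only [MeasurableEquiv.piFinSuccAbove_symm_apply, Fin.insertNthEquiv, Equiv.coe_fn_mk,
      Fin.insertNth_zero', Fin.prod_univ_succ, Fin.cons_zero, Fin.cons_succ, Fin.prod_Ioi_zero,
      Fin.prod_Ioi_succ, Finset.prod_mul_distrib]
    ring
  simp_rw [this]
  rw [lintegral_prod _ hm.aemeasurable]
  refine lintegral_congr (fun y => ?_)
  have hm2 : Measurable (fun x : Fin N → Space =>
      (∏ i, (u (x i) * k y (x i))) * ∏ i, ∏ j ∈ Ioi i, k (x i) (x j)) :=
    (measurable_Zw_integrand (fun y x => u x * k y x) k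
      ((hu.comp measurable_snd).mul hk) hk N).comp (measurable_const.prodMk measurable_id)
  rw [← lintegral_const_mul _ hm2, volume_pi]

lemma Zw_add (k : Space → Space → ℝ≥0∞) (hk : Measurable (Function.uncurry k)) (N : ℕ) :
    ∀ (u v : Space → ℝ≥0∞), Measurable u → Measurable v →
      (∀ x y, u x ≠ 0 → v y ≠ 0 → k x y = 1 ∧ k y x = 1) →
      Zw (fun x => u x + v x) k N =
        ∑ p ∈ antidiagonal N, (N.choose p.1 : ℝ≥0∞) * (Zw u k p.1 * Zw v k p.2) := by
  induction N with
  | zero => intro u v _ _ _; simp [Zw_zero]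
  | succ N ih =>
    intro u v hu hv huv
    rw [Zw_succ (fun x => u x + v x) k (hu.add hv) hk]
    have hky : ∀ y, Measurable (fun x => k y x) := fun y =>
      hk.comp (measurable_const.prodMk measurable_id)
    have h1 : ∀ y, u y * Zw (fun x => (u x + v x) * k y x) k N =
        ∑ p ∈ antidiagonal N, (N.choose p.1 : ℝ≥0∞) *
          ((u y * Zw (fun x => u x * k y x) k p.1) * Zw v k p.2) := by
      intro y
      by_cases hy : u y = 0
      · simp [hy]
      have : (fun x => (u x + v x) * k y x) = fun x => u x * k y x + v x := by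
        funext x
        by_cases hx : v x = 0
        · simp [hx]
        · rw [add_mul, (huv y x hy hx).1, mul_one, mul_one]
      rw [this, ih (fun x => u x * k y x) v (hu.mul (hky y)) hv, Finset.mul_sum]
      · refine Finset.sum_congr rfl (fun p _ => by ring)
      · intro x z hx hz
        exact huv x z (fun h => hx (by simp [h])) hz
    have h2 : ∀ y, v y * Zw (fun x => (u x + v x) * k y x) k N =
        ∑ p ∈ antidiagonal N, (N.choose p.1 : ℝ≥0∞) *
          (Zw u k p.1 * (v y * Zw (fun x => v x * k y x) k p.2)) := by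
      intro y
      by_cases hy : v y = 0
      · simp [hy]
      have : (fun x => (u x + v x) * k y x) = fun x => u x + v x * k y x := by
        funext x
        by_cases hx : u x = 0
        · simp [hx]
        · rw [add_mul, (huv x y hx hy).2, mul_one, mul_one]
      rw [this, ih u (fun x => v x * k y x) hu (hv.mul (hky y)), Finset.mul_sum]
      · refine Finset.sum_congr rfl (fun p _ => by ring)
      · intro x z hx hz
        exact huv x z hx (fun h => hz (by simp [h]))
    have hmu : ∀ m, Measurable (fun y => u y * Zw (fun x => u x * k y x) k m) := fun m =>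
      hu.mul (measurable_Zw (fun y x => u x * k y x) k ((hu.comp measurable_snd).mul hk) hk m)
    have hmv : ∀ m, Measurable (fun y => v y * Zw (fun x => v x * k y x) k m) := fun m =>
      hv.mul (measurable_Zw (fun y x => v x * k y x) k ((hv.comp measurable_snd).mul hk) hk m)
    simp_rw [add_mul (u _) (v _) (Zw _ _ _), h1, h2]
    rw [lintegral_add_left, lintegral_finsetSum, lintegral_finsetSum,
      Finset.sum_antidiagonal_choose_succ_mul (fun a b => Zw u k a * Zw v k b), add_comm]
    · congr 1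
      · refine Finset.sum_congr rfl (fun p _ => ?_)
        rw [lintegral_const_mul _ ((hmv _).const_mul _), lintegral_const_mul _ (hmv _),
          Zw_succ v k hv hk]
      · refine Finset.sum_congr rfl (fun p hp => ?_)
        rw [lintegral_const_mul _ ((hmu _).mul_const _), lintegral_mul_const _ (hmu _),
          Zw_succ u k hu hk, Nat.choose_symm_of_eq_add (mem_antidiagonal.mp hp).symm]
    · intro p _; exact ((hmv _).const_mul _).const_mul _
    · intro p _; exact ((hmu _).mul_const _).const_mul _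
    · exact Finset.measurable_sum _ (fun p _ => ((hmu _).mul_const _).const_mul _)


/-- A Hamiltonian (with the sign of a log-weight) on all particle numbers. -/
abbrev Ham : Type := (N : ℕ) → (Fin N → Space) → ℝ

/-- the `N` particle term -/
noncomputable def term (Λ : Set Space) (H : Ham) (N : ℕ) : ℝ≥0∞ :=
  (N.factorial : ℝ≥0∞)⁻¹ *
    ∫⁻ x in Set.univ.pi (fun _ : Fin N => Λ), ENNReal.ofReal (Real.exp (H N x))

/-- grand canonical sum -/
noncomputable def gc (Λ : Set Space) (H : Ham) : ℝ≥0∞ := ∑' N, term Λ H N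

/-- pair sum -/
noncomputable def pairSum (ψ : Space → Space → ℝ) {N : ℕ} (x : Fin N → Space) : ℝ :=
  ∑ i, ∑ j ∈ Ioi i, ψ (x i) (x j)

/-- log-weight of a pair interaction with chemical potential -/
noncomputable def pairH (μ : ℝ) (ψ : Space → Space → ℝ) : Ham :=
  fun N x => μ * N - pairSum ψ x

lemma measurable_pairSum {ψ : Space → Space → ℝ} (hψ : Measurable (Function.uncurry ψ)) (N : ℕ) :
    Measurable (fun x : Fin N → Space => pairSum ψ x) := by
  unfold pairSum
  refine Finset.measurable_sum _ (fun i _ => Finset.measurable_sum _ (fun j _ => ?_))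
  have h2 : Measurable (fun p : (Fin N → Space) => (p i, p j)) := by fun_prop
  exact hψ.comp h2

lemma measurable_pairH (μ : ℝ) {ψ : Space → Space → ℝ} (hψ : Measurable (Function.uncurry ψ))
    (N : ℕ) : Measurable (pairH μ ψ N) :=
  measurable_const.sub (measurable_pairSum hψ N)

lemma measurableSet_conf {Λ : Set Space} (hΛ : MeasurableSet Λ) (N : ℕ) :
    MeasurableSet (Set.univ.pi (fun _ : Fin N => Λ)) :=
  MeasurableSet.univ_pi (fun _ => hΛ)

lemma term_mono {Λ : Set Space} (hΛ : MeasurableSet Λ) {H H' : Ham} {N : ℕ}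
    (h : ∀ x : Fin N → Space, (∀ i, x i ∈ Λ) → H N x ≤ H' N x) : term Λ H N ≤ term Λ H' N := by
  unfold term
  gcongr 1
  refine setLIntegral_mono' (measurableSet_conf hΛ N) (fun x hx => ?_)
  exact ENNReal.ofReal_le_ofReal (Real.exp_le_exp.mpr (h x (fun i => hx i trivial)))

lemma gc_mono {Λ : Set Space} (hΛ : MeasurableSet Λ) {H H' : Ham}
    (h : ∀ N (x : Fin N → Space), (∀ i, x i ∈ Λ) → H N x ≤ H' N x) : gc Λ H ≤ gc Λ H' :=
  ENNReal.tsum_le_tsum (fun N => term_mono hΛ (h N))

lemma gc_mono_set {Λ Λ' : Set Space} (h : Λ ⊆ Λ') (H : Ham) : gc Λ H ≤ gc Λ' H := by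
  refine ENNReal.tsum_le_tsum (fun N => ?_)
  unfold term
  gcongr 1
  exact lintegral_mono_set (Set.pi_mono (fun _ _ => h))

lemma term_add_const (Λ : Set Space) (H : Ham) (c : ℕ → ℝ) (N : ℕ) :
    term Λ (fun N x => H N x + c N) N = ENNReal.ofReal (Real.exp (c N)) * term Λ H N := by
  unfold term
  simp_rw [Real.exp_add, mul_comm (Real.exp (H _ _)), ENNReal.ofReal_mul (Real.exp_pos _).le]
  rw [lintegral_const_mul' _ _ ENNReal.ofReal_ne_top]
  ring

lemma term_le_gc (Λ : Set Space) (H : Ham) (N : ℕ) : term Λ H N ≤ gc Λ H :=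
  ENNReal.le_tsum N

lemma gc_add_const (Λ : Set Space) (H : Ham) (c : ℝ) :
    gc Λ (fun N x => H N x + c) = ENNReal.ofReal (Real.exp c) * gc Λ H := by
  unfold gc
  rw [← ENNReal.tsum_mul_left]
  exact tsum_congr (fun N => term_add_const Λ H (fun _ => c) N)

lemma gc_le_sum {ι : Type} {Λ : Set Space} (hΛ : MeasurableSet Λ) (s : Finset ι) (c : ι → ℝ)
    (hc : ∀ t ∈ s, 0 ≤ c t) (Hs : ι → Ham) (hm : ∀ t ∈ s, ∀ N, Measurable (Hs t N)) (H : Ham)
    (h : ∀ N (x : Fin N → Space), (∀ i, x i ∈ Λ) →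
      Real.exp (H N x) ≤ ∑ t ∈ s, c t * Real.exp (Hs t N x)) :
    gc Λ H ≤ ∑ t ∈ s, ENNReal.ofReal (c t) * gc Λ (Hs t) := by
  unfold gc
  simp_rw [← ENNReal.tsum_mul_left]
  rw [← Summable.tsum_finsetSum (fun _ _ => ENNReal.summable)]
  refine ENNReal.tsum_le_tsum (fun N => ?_)
  unfold term
  calc (N.factorial : ℝ≥0∞)⁻¹ *
        ∫⁻ x in Set.univ.pi (fun _ : Fin N => Λ), ENNReal.ofReal (Real.exp (H N x))
      ≤ (N.factorial : ℝ≥0∞)⁻¹ * ∫⁻ x in Set.univ.pi (fun _ : Fin N => Λ),
          ∑ t ∈ s, ENNReal.ofReal (c t) * ENNReal.ofReal (Real.exp (Hs t N x)) := by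
        gcongr 1
        refine setLIntegral_mono' (measurableSet_conf hΛ N) (fun x hx => ?_)
        refine (ENNReal.ofReal_le_ofReal (h N x (fun i => hx i trivial))).trans (le_of_eq ?_)
        rw [ENNReal.ofReal_sum_of_nonneg
          (fun t ht => mul_nonneg (hc t ht) (Real.exp_pos _).le)]
        exact Finset.sum_congr rfl (fun t ht => ENNReal.ofReal_mul (hc t ht))
    _ = _ := by
        rw [lintegral_finsetSum, Finset.mul_sum]
        · refine Finset.sum_congr rfl (fun t _ => ?_)
          rw [lintegral_const_mul' _ _ ENNReal.ofReal_ne_top]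
          ring
        · intro t ht
          exact ((hm t ht N).exp.ennreal_ofReal).const_mul _

lemma gc_holder {Λ : Set Space} (hΛ : MeasurableSet Λ) {H₀ H₁ H : Ham}
    (hm₀ : ∀ N, Measurable (H₀ N)) (hm₁ : ∀ N, Measurable (H₁ N)) {α β l : ℝ}
    (hl0 : 0 ≤ l) (hl1 : l ≤ 1)
    (h₀ : gc Λ H₀ ≤ ENNReal.ofReal (Real.exp α)) (h₁ : gc Λ H₁ ≤ ENNReal.ofReal (Real.exp β))
    (h : ∀ N (x : Fin N → Space), (∀ i, x i ∈ Λ) → H N x ≤ (1 - l) * H₀ N x + l * H₁ N x) :
    gc Λ H ≤ ENNReal.ofReal (Real.exp ((1 - l) * α + l * β)) := by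
  set γ := (1 - l) * α + l * β with hγ
  have key := gc_le_sum hΛ (Finset.univ : Finset Bool)
    (fun b => if b then l * Real.exp (γ - β) else (1 - l) * Real.exp (γ - α))
    (by
      intro b _
      cases b
      · simp only [Bool.false_eq_true, if_false]
        exact mul_nonneg (by linarith) (Real.exp_pos _).le
      · simp only [if_true]
        exact mul_nonneg hl0 (Real.exp_pos _).le)
    (fun b => if b then H₁ else H₀)
    (by
      intro b _ N
      cases b
      · simpa using hm₀ N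
      · simpa using hm₁ N) H
    (by
      intro N x hx
      simp only [Fintype.sum_bool, if_true, Bool.false_eq_true, if_false]
      have hc := convexOn_exp.2 (Set.mem_univ (H₀ N x - α)) (Set.mem_univ (H₁ N x - β))
        (by linarith : 0 ≤ 1 - l) hl0 (by ring)
      simp only [smul_eq_mul] at hc
      have h1 : Real.exp (H N x) ≤
          Real.exp γ * Real.exp ((1 - l) * (H₀ N x - α) + l * (H₁ N x - β)) := by
        rw [← Real.exp_add]
        refine Real.exp_le_exp.mpr ((h N x hx).trans (le_of_eq ?_))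
        rw [hγ]; ring
      refine h1.trans ((mul_le_mul_of_nonneg_left hc (Real.exp_pos _).le).trans (le_of_eq ?_))
      simp only [Real.exp_sub]
      ring)
  simp only [Fintype.sum_bool, if_true, Bool.false_eq_true, if_false] at key
  refine key.trans ?_
  calc ENNReal.ofReal (l * Real.exp (γ - β)) * gc Λ H₁ +
        ENNReal.ofReal ((1 - l) * Real.exp (γ - α)) * gc Λ H₀
      ≤ ENNReal.ofReal (l * Real.exp (γ - β)) * ENNReal.ofReal (Real.exp β) +
        ENNReal.ofReal ((1 - l) * Real.exp (γ - α)) * ENNReal.ofReal (Real.exp α) := by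
        gcongr
    _ = ENNReal.ofReal (Real.exp γ) := by
        have e1 : 0 ≤ l * Real.exp (γ - β) := mul_nonneg hl0 (Real.exp_pos _).le
        have e2 : 0 ≤ (1 - l) * Real.exp (γ - α) := mul_nonneg (by linarith) (Real.exp_pos _).le
        rw [← ENNReal.ofReal_mul e1, ← ENNReal.ofReal_mul e2,
          ← ENNReal.ofReal_add (mul_nonneg e1 (Real.exp_pos _).le)
            (mul_nonneg e2 (Real.exp_pos _).le)]
        congr 1
        rw [mul_assoc, mul_assoc, ← Real.exp_add, ← Real.exp_add, sub_add_cancel, sub_add_cancel]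
        ring

lemma term_le_of_le {Λ : Set Space} (hΛ : MeasurableSet Λ) {V : ℝ} (hV : 0 ≤ V)
    (hvol : volume Λ ≤ ENNReal.ofReal V) {H : Ham} {b : ℝ} {N : ℕ}
    (h : ∀ x : Fin N → Space, (∀ i, x i ∈ Λ) → H N x ≤ b * N) :
    term Λ H N ≤ ENNReal.ofReal ((Real.exp b * V) ^ N / N.factorial) := by
  refine (term_mono (H' := fun N _ => b * N) hΛ h).trans ?_
  unfold term
  rw [setLIntegral_const, volume_pi_pi, Finset.prod_const, Finset.card_univ, Fintype.card_fin,
    ENNReal.ofReal_div_of_pos (by positivity), ENNReal.ofReal_natCast, ENNReal.div_eq_inv_mul,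
    mul_pow, ENNReal.ofReal_mul (by positivity), ← Real.exp_nat_mul, mul_comm (N : ℝ) b,
    ENNReal.ofReal_pow hV]
  gcongr

lemma gc_le_of_le {Λ : Set Space} (hΛ : MeasurableSet Λ) {V : ℝ} (hV : 0 ≤ V)
    (hvol : volume Λ ≤ ENNReal.ofReal V) {H : Ham} {b : ℝ}
    (h : ∀ N (x : Fin N → Space), (∀ i, x i ∈ Λ) → H N x ≤ b * N) :
    gc Λ H ≤ ENNReal.ofReal (Real.exp (Real.exp b * V)) := by
  refine (ENNReal.tsum_le_tsum (fun N => term_le_of_le hΛ hV hvol (h N))).trans (le_of_eq ?_)
  have hs := NormedSpace.expSeries_div_hasSum_exp (Real.exp b * V)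
  rw [← ENNReal.ofReal_tsum_of_nonneg (fun N => by positivity) hs.summable, hs.tsum_eq,
    Real.exp_eq_exp_ℝ]

lemma term_pairH_zero (Λ : Set Space) (μ : ℝ) (ψ : Space → Space → ℝ) :
    term Λ (pairH μ ψ) 0 = 1 := by
  simp [term, pairH, pairSum, volume_pi]

lemma one_le_gc (Λ : Set Space) (μ : ℝ) (ψ : Space → Space → ℝ) : 1 ≤ gc Λ (pairH μ ψ) := by
  rw [← term_pairH_zero Λ μ ψ]; exact term_le_gc _ _ _

lemma term_pairH_one (Λ : Set Space) (μ : ℝ) (ψ : Space → Space → ℝ) :
    term Λ (pairH μ ψ) 1 = ENNReal.ofReal (Real.exp μ) * volume Λ := by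
  have : ∀ x : Fin 1 → Space, pairH μ ψ 1 x = μ := by
    intro x; simp [pairH, pairSum]
  unfold term
  simp_rw [this]
  rw [setLIntegral_const, volume_pi_pi]
  simp

lemma term_pairH_eq_Zw {Λ : Set Space} (hΛ : MeasurableSet Λ) (μ : ℝ) (ψ : Space → Space → ℝ)
    (N : ℕ) : term Λ (pairH μ ψ) N = (N.factorial : ℝ≥0∞)⁻¹ *
      Zw (Λ.indicator (fun _ => ENNReal.ofReal (Real.exp μ)))
        (fun x y => ENNReal.ofReal (Real.exp (-ψ x y))) N := by
  unfold term Zw
  congr 1
  rw [← lintegral_indicator (measurableSet_conf hΛ N)]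
  refine lintegral_congr (fun x => ?_)
  by_cases hx : x ∈ Set.univ.pi (fun _ : Fin N => Λ)
  · rw [Set.indicator_of_mem hx]
    have h1 : ∀ i, Λ.indicator (fun _ => ENNReal.ofReal (Real.exp μ)) (x i) =
        ENNReal.ofReal (Real.exp μ) := fun i => Set.indicator_of_mem (hx i trivial) _
    simp_rw [h1]
    simp_rw [← ENNReal.ofReal_prod_of_nonneg (fun _ _ => (Real.exp_pos _).le), ← Real.exp_sum]
    rw [← ENNReal.ofReal_prod_of_nonneg (fun _ _ => (Real.exp_pos _).le), ← Real.exp_sum,
      ← ENNReal.ofReal_mul (Real.exp_pos _).le, ← Real.exp_add]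
    congr 2
    simp [pairH, pairSum, sub_eq_add_neg, mul_comm]
  · rw [Set.indicator_of_notMem hx]
    simp only [Set.mem_pi, Set.mem_univ, true_imp_iff, not_forall] at hx
    obtain ⟨i, hi⟩ := hx
    rw [Finset.prod_eq_zero (Finset.mem_univ i) (Set.indicator_of_notMem hi _), zero_mul]

lemma gc_union_eq {A B : Set Space} (hA : MeasurableSet A) (hB : MeasurableSet B)
    (hd : Disjoint A B) (μ : ℝ) {ψ : Space → Space → ℝ} (hψ : Measurable (Function.uncurry ψ))
    (h : ∀ x ∈ A, ∀ y ∈ B, ψ x y = 0 ∧ ψ y x = 0) :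
    gc (A ∪ B) (pairH μ ψ) = gc A (pairH μ ψ) * gc B (pairH μ ψ) := by
  unfold gc
  simp_rw [term_pairH_eq_Zw (hA.union hB), term_pairH_eq_Zw hA, term_pairH_eq_Zw hB]
  set k : Space → Space → ℝ≥0∞ := fun x y => ENNReal.ofReal (Real.exp (-ψ x y)) with hkdef
  have hk : Measurable (Function.uncurry k) := hψ.neg.exp.ennreal_ofReal
  set c : ℝ≥0∞ := ENNReal.ofReal (Real.exp μ)
  have hind : (A ∪ B).indicator (fun _ => c) =
      fun x => A.indicator (fun _ => c) x + B.indicator (fun _ => c) x :=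
    Set.indicator_union_of_disjoint hd _
  rw [hind]
  have hz := fun N => Zw_add k hk N (A.indicator (fun _ => c)) (B.indicator (fun _ => c))
    (measurable_const.indicator hA) (measurable_const.indicator hB) (by
      intro x y hx hy
      have hx' := Set.mem_of_indicator_ne_zero hx
      have hy' := Set.mem_of_indicator_ne_zero hy
      simp [hkdef, (h x hx' y hy').1, (h x hx' y hy').2])
  simp_rw [hz]
  set a : ℕ → ℝ≥0∞ := fun N => (N.factorial : ℝ≥0∞)⁻¹ * Zw (A.indicator (fun _ => c)) k N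
  set b : ℕ → ℝ≥0∞ := fun N => (N.factorial : ℝ≥0∞)⁻¹ * Zw (B.indicator (fun _ => c)) k N
  have hcauchy : (∑' N, a N) * (∑' N, b N) = ∑' N, ∑ p ∈ antidiagonal N, a p.1 * b p.2 := by
    rw [← ENNReal.tsum_mul_right]
    simp_rw [← ENNReal.tsum_mul_left]
    rw [← ENNReal.tsum_prod (f := fun i j => a i * b j),
      ← Finset.HasAntidiagonal.sigmaAntidiagonalEquivProd.tsum_eq, ENNReal.tsum_sigma']
    refine tsum_congr (fun N => ?_)
    rw [← Finset.tsum_subtype]
    rfl
  rw [hcauchy]
  refine tsum_congr (fun N => ?_)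
  rw [Finset.mul_sum]
  refine Finset.sum_congr rfl (fun p hp => ?_)
  have hp' : p.1 + p.2 = N := mem_antidiagonal.mp hp
  have hf : (N.factorial : ℝ≥0∞) = N.choose p.1 * p.1.factorial * p.2.factorial := by
    have := Nat.add_choose_mul_factorial_mul_factorial p.2 p.1
    rw [add_comm, hp'] at this
    rw [← this]; push_cast; ring
  have hc0 : (N.choose p.1 : ℝ≥0∞) ≠ 0 := by
    have : 0 < N.choose p.1 := Nat.choose_pos (by omega)
    exact_mod_cast this.ne'
  have hf0 : ∀ m : ℕ, (m.factorial : ℝ≥0∞) ≠ 0 := fun m => by exact_mod_cast m.factorial_ne_zero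
  rw [hf, ENNReal.mul_inv (Or.inl (mul_ne_zero hc0 (hf0 _))) (Or.inr (hf0 _)),
    ENNReal.mul_inv (Or.inl hc0) (Or.inr (hf0 _))]
  simp only [a, b]
  calc _ = ((N.choose p.1 : ℝ≥0∞)⁻¹ * (N.choose p.1 : ℝ≥0∞)) *
      (((p.1.factorial : ℝ≥0∞)⁻¹ * Zw (A.indicator (fun _ => c)) k p.1) *
        ((p.2.factorial : ℝ≥0∞)⁻¹ * Zw (B.indicator (fun _ => c)) k p.2)) := by ring
    _ = _ := by rw [ENNReal.inv_mul_cancel hc0 (ENNReal.natCast_ne_top _), one_mul]

end Vale.Agent.P171
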