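import Vale.Agent.P171.Pressure

/-!
Quantitative Lebowitz-Penrose bounds for adding one Kac attraction.
-/

namespace Vale.Agent.P171

open MeasureTheory Filter Topology Finset Metric
open scoped ENNReal Classical

/-- the repulsive core -/
noncomputable def core (r : ℝ) : ℝ := max 0 (3 - r)

lemma continuous_core : Continuous core := by unfold core; fun_prop

lemma core_nonneg (r : ℝ) : 0 ≤ core r := le_max_left _ _

lemma core_eq_zero {r : ℝ} (h : 3 ≤ r) : core r = 0 := max_eq_left (by linarith)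

/-- the pair sum of `ψ` is controlled by the occupation numbers of unit cubes -/
def Budget (ψ : ℝ → ℝ) (A : ℝ) : Prop :=
  ∀ (N : ℕ) (x : Fin N → Space), pairSum (rad ψ) x ≤ A * occ 0 1 x

lemma occ_le_core {N : ℕ} (x : Fin N → Space) : occ 0 1 x ≤ N + 2 * pairSum (rad core) x := by
  rw [occ_eq]
  have : pairSum (same 0 1) x ≤ pairSum (rad core) x := by
    refine Finset.sum_le_sum (fun i _ => Finset.sum_le_sum (fun j _ => ?_))
    unfold same rad
    split_ifs with h
    · have := dist_le_of_lab_eq one_pos h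
      exact le_max_of_le_right (by linarith)
    · exact core_nonneg _
  linarith

lemma pairSum_rad_sub (K : ℝ) (ψ : ℝ → ℝ) {N : ℕ} (x : Fin N → Space) :
    pairSum (rad (fun r => K * core r - ψ r)) x = K * pairSum (rad core) x - pairSum (rad ψ) x := by
  have := pairSum_rad_lin core ψ K (-1) x
  simp only [neg_mul, one_mul, ← sub_eq_add_neg] at this
  exact this

lemma good_of_budget {K A : ℝ} {ψ : ℝ → ℝ} (hK : 0 ≤ K) (hm : Measurable ψ) (h0 : ∀ r, 0 ≤ ψ r)
    (hb : Budget ψ A) (hA : 2 * A ≤ K) : Good (fun r => K * core r - ψ r) (K / 2) where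
  meas := (continuous_core.measurable.const_mul K).sub hm
  stab := fun N x => by
    rw [pairSum_rad_sub]
    have h1 := hb N x
    have h2 := mul_le_mul_of_nonneg_left (occ_le_core x) hK
    have h3 := mul_le_mul_of_nonneg_right hA (occ_nonneg 0 1 x)
    linarith
  attr := fun r hr => by rw [core_eq_zero hr]; linarith [h0 r]

lemma budget_kern {R : ℝ} (hR : 2 ≤ R) : Budget (kern R) 4 := by
  intro N x
  have hR0 : 0 < R := by linarith
  have h1 := kk_le hR0 one_pos 0 x
  have h2 := kk_eq hR0 x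
  have h3 : (1 + 2 * 1 / R) ^ 3 / 1 ^ 3 ≤ 8 := by
    have : 2 * 1 / R ≤ 1 := by rw [div_le_one hR0]; linarith
    have h4 : (1 + 2 * 1 / R) ^ 3 ≤ 2 ^ 3 := pow_le_pow_left₀ (by positivity) (by linarith) 3
    linarith
  have h4 := mul_le_mul_of_nonneg_right h3 (occ_nonneg 0 1 x)
  have h5 : 0 ≤ (N : ℝ) / vB R := div_nonneg (Nat.cast_nonneg N) (vB_pos hR0).le
  have h6 : pairSum (rad (kern R)) x = pairSum (fun a b => kern R (dist a b)) x := rfl
  linarith

lemma Budget.add {ψ ψ' : ℝ → ℝ} {A A' : ℝ} (h : Budget ψ A) (h' : Budget ψ' A') {a b : ℝ}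
    (ha : 0 ≤ a) (hb : 0 ≤ b) : Budget (fun r => a * ψ r + b * ψ' r) (a * A + b * A') := by
  intro N x
  rw [pairSum_rad_lin]
  have h1 := mul_le_mul_of_nonneg_left (h N x) ha
  have h2 := mul_le_mul_of_nonneg_left (h' N x) hb
  linarith

lemma Budget.mono {ψ : ℝ → ℝ} {A A' : ℝ} (h : Budget ψ A) (hA : A ≤ A') : Budget ψ A' :=
  fun N x => (h N x).trans (mul_le_mul_of_nonneg_right hA (occ_nonneg 0 1 x))

lemma kac_lower {φ φ' : ℝ → ℝ} {B B' a R : ℝ} (h : Good φ B) (h' : Good φ' B') (ha : 0 < a)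
    (hR : 0 < R) (hφ : ∀ r, 0 ≤ r → φ' r ≤ φ r - a * kern R r) (μ s : ℝ) :
    P φ (μ + s) - s ^ 2 / (2 * a) ≤ P φ' (μ + a / (2 * vB R)) := by
  have h1 := (h.tendsto_P (μ + s)).sub ((tendsto_cube 1 (2 * R)).const_mul (s ^ 2 / (2 * a)))
  rw [one_pow, mul_one] at h1
  refine le_of_tendsto_of_tendsto h1 (h'.tendsto_P _) ?_
  filter_upwards [eventually_gt_atTop 0] with L hL
  have key : lp φ (μ + s) L - s ^ 2 / (2 * a) * (L + 2 * R) ^ 3 ≤
      lp φ' (μ + a / (2 * vB R)) L := by
    rw [h'.le_lp_iff _ hL.le, sub_eq_add_neg, add_comm, Real.exp_add,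
      ENNReal.ofReal_mul (Real.exp_pos _).le, ← h.Xi_eq _ hL.le]
    unfold Xi
    rw [← gc_add_const]
    refine gc_mono (measurableSet_box L) (fun N x hx => ?_)
    have h2 := kk_ge hR hL.le ha s x hx
    rw [kk_eq hR] at h2
    have h3 := pairSum_rad_mono hφ x
    have h4 := pairSum_rad_lin φ (kern R) 1 (-a) x
    simp only [one_mul, neg_mul, ← sub_eq_add_neg] at h4
    rw [h4] at h3
    have h6 : pairSum (rad (kern R)) x = pairSum (fun a b => kern R (dist a b)) x := rfl
    have h7 : a / (2 * vB R) * N = a / 2 * (N / vB R) := by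
      have := vB_pos hR
      field_simp
    unfold pairH
    rw [← h6] at h2
    nlinarith
  have hL3 : 0 < L ^ 3 := by positivity
  calc lp φ (μ + s) L / L ^ 3 - s ^ 2 / (2 * a) * ((1 * L + 2 * R) ^ 3 / L ^ 3)
      = (lp φ (μ + s) L - s ^ 2 / (2 * a) * (L + 2 * R) ^ 3) / L ^ 3 := by rw [one_mul]; ring
    _ ≤ _ := div_le_div_of_nonneg_right key hL3.le

lemma pairH_const_shift (μ c : ℝ) (φ : ℝ → ℝ) (N : ℕ) (x : Fin N → Space) :
    pairH (μ + c / 2) (rad (fun r => φ r - c)) N x = pairH μ (rad φ) N x + c / 2 * (N : ℝ) ^ 2 := by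
  have h1 := pairSum_rad_lin φ (fun _ => c) 1 (-1) x
  simp only [one_mul, neg_mul, ← sub_eq_add_neg] at h1
  have h2 := pairSum_const c x
  have h3 : pairSum (rad (fun _ => c)) x = pairSum (fun _ _ => c) x := rfl
  unfold pairH
  rw [h1, h3]
  linarith

lemma gc_le_geom {Λ : Set Space} {H : Ham} {S M : ℝ} (hM : 0 < M)
    (h : ∀ N, term Λ H N ≤ ENNReal.ofReal (Real.exp S)) :
    gc Λ (fun N x => H N x + -(N / M)) ≤ ENNReal.ofReal (Real.exp (S + M)) := by
  set q : ℝ := Real.exp (-(1 / M)) with hq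
  have hq0 : 0 < q := Real.exp_pos _
  have hq1 : q < 1 := by
    rw [hq, Real.exp_lt_one_iff]; simp [hM]
  have hsum := hasSum_geometric_of_lt_one hq0.le hq1
  calc gc Λ (fun N x => H N x + -(N / M))
      ≤ ∑' N : ℕ, ENNReal.ofReal (q ^ N) * ENNReal.ofReal (Real.exp S) := by
        refine ENNReal.tsum_le_tsum (fun N => ?_)
        rw [term_add_const Λ H (fun N => -(N / M)) N]
        have : Real.exp (-(N / M)) = q ^ N := by
          rw [hq, ← Real.exp_nat_mul]; congr 1; ring
        rw [this]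
        gcongr
        exact h N
    _ = ENNReal.ofReal ((1 - q)⁻¹ * Real.exp S) := by
        rw [ENNReal.tsum_mul_right, ← ENNReal.ofReal_tsum_of_nonneg (fun N => by positivity)
          hsum.summable, hsum.tsum_eq, ENNReal.ofReal_mul (inv_nonneg.mpr (by linarith))]
    _ ≤ _ := by
        refine ENNReal.ofReal_le_ofReal ?_
        rw [Real.exp_add, mul_comm]
        refine mul_le_mul_of_nonneg_left ?_ (Real.exp_pos _).le
        have h1 : 1 + 1 / M ≤ Real.exp (1 / M) := by linarith [Real.add_one_le_exp (1 / M)]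
        have h2 : q * Real.exp (1 / M) = 1 := by rw [hq, ← Real.exp_add]; simp
        have h3 : q * (M + 1) ≤ M := by
          have : q * (1 + 1 / M) ≤ 1 := by nlinarith
          have h4 : q * (1 + 1 / M) * M = q * (M + 1) := by field_simp
          nlinarith
        have h5 : (1 - q)⁻¹ ≤ M + 1 := by
          rw [inv_le_comm₀ (by linarith) (by linarith), inv_eq_one_div, div_le_iff₀ (by linarith)]
          nlinarith
        linarith [Real.add_one_le_exp M]

/-- the mean field model in one mesoscopic cube -/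
lemma cube_bound {K A a a' κ l M μ T : ℝ} {ψ : ℝ → ℝ} (hK : 0 ≤ K) (hm : Measurable ψ)
    (h0 : ∀ r, 0 ≤ ψ r) (hb : Budget ψ A) (hA : 0 ≤ A) (ha : 0 < a) (hKA : 8 * a + 2 * A ≤ K / 2)
    (hM : 1 ≤ M) (hl : 18 * M ≤ l) (ha' : a' ≤ a * (1 + 1 / (2 * M))) (hκ : κ ≤ 1 + 1 / M)
    (hT0 : 0 ≤ T)
    (hT : ∀ s, P (fun r => K * core r - ψ r) (μ + s) - s ^ 2 / (2 * a) ≤ T) :
    Xi (fun r => K * core r - κ * ψ r - a' / l ^ 3) (μ + a' / l ^ 3 / 2) l ≤
      ENNReal.ofReal (Real.exp ((l + 3) ^ 3 * T + M + Real.exp (μ + 1 + K / 2) * l ^ 3 / M)) := by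
  have hM0 : 0 < M := by linarith
  have hl0 : 0 < l := by linarith
  have hl2 : 2 ≤ l := by linarith
  have hV : 0 < l ^ 3 := by positivity
  have hV' : 0 < (l + 3) ^ 3 := by positivity
  set φ : ℝ → ℝ := fun r => K * core r - ψ r with hφ
  have hg : Good φ (K / 2) := good_of_budget hK hm h0 hb (by linarith)
  set H₀ : Ham := fun N x => pairH μ (rad φ) N x + a / (l + 3) ^ 3 / 2 * (N : ℝ) ^ 2 with hH₀
  have hterm : ∀ N, term (box l) H₀ N ≤ ENNReal.ofReal (Real.exp ((l + 3) ^ 3 * T)) := by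
    intro N
    set s : ℝ := a / (l + 3) ^ 3 * N with hs
    have e1 : term (box l) H₀ N =
        term (box l) (fun N' x => pairH (μ + s) (rad φ) N' x + -((l + 3) ^ 3 * (s ^ 2 / (2 * a)))) N := by
      unfold term
      congr 1
      refine lintegral_congr (fun x => ?_)
      congr 2
      simp only [hH₀, pairH, hs]
      field_simp
      ring
    rw [e1, term_add_const (box l) (pairH (μ + s) (rad φ))
      (fun _ => -((l + 3) ^ 3 * (s ^ 2 / (2 * a)))) N]
    have e2 : term (box l) (pairH (μ + s) (rad φ)) N ≤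
        ENNReal.ofReal (Real.exp ((l + 3) ^ 3 * P φ (μ + s))) :=
      (term_le_gc _ _ N).trans ((hg.lp_le_iff _ hl0.le _).mp (hg.lp_le_P _ hl0.le))
    refine (mul_le_mul_right e2 _).trans ?_
    rw [← ENNReal.ofReal_mul (Real.exp_pos _).le, ← Real.exp_add]
    refine ENNReal.ofReal_le_ofReal (Real.exp_le_exp.mpr ?_)
    have := mul_le_mul_of_nonneg_left (hT s) hV'.le
    linarith
  have h₀ := gc_le_geom hM0 hterm
  set H₁ : Ham := fun N x => (μ + 1) * N + a / l ^ 3 * (N : ℝ) ^ 2 - K * pairSum (rad core) x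
    + 2 * pairSum (rad ψ) x with hH₁
  have h₁ : gc (box l) H₁ ≤ ENNReal.ofReal (Real.exp (Real.exp (μ + 1 + K / 2) * l ^ 3)) := by
    refine gc_le_of_le (measurableSet_box l) hV.le (volume_box hl0.le).le (fun N x hx => ?_)
    have e1 := sq_le_occ hl2 x hx
    have e2 : a / l ^ 3 * (N : ℝ) ^ 2 ≤ 8 * a * occ 0 1 x := by
      calc a / l ^ 3 * (N : ℝ) ^ 2 ≤ a / l ^ 3 * (8 * l ^ 3 * occ 0 1 x) :=
            mul_le_mul_of_nonneg_left e1 (by positivity)
        _ = 8 * a * occ 0 1 x := by field_simp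
    have e3 := hb N x
    have e4 := mul_le_mul_of_nonneg_left (occ_le_core x) hK
    have e5 := mul_le_mul_of_nonneg_right hKA (occ_nonneg 0 1 x)
    simp only [hH₁]
    linarith
  have hm₀ : ∀ N, Measurable (fun x : Fin N → Space => H₀ N x + -(N / M)) := fun N =>
    ((measurable_pairH μ (measurable_rad hg.meas) N).add_const _).add_const _
  have hm₁ : ∀ N, Measurable (H₁ N) := fun N =>
    (measurable_const.sub ((measurable_pairSum (measurable_rad continuous_core.measurable) N).const_mul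
      K)).add ((measurable_pairSum (measurable_rad hm) N).const_mul 2)
  have hlam0 : 0 ≤ 1 / M := by positivity
  have hlam1 : 1 / M ≤ 1 := by rw [div_le_one hM0]; exact hM
  have key := gc_holder (H := pairH (μ + a' / l ^ 3 / 2)
      (rad (fun r => K * core r - κ * ψ r - a' / l ^ 3))) (measurableSet_box l) hm₀ hm₁ hlam0 hlam1
      h₀ h₁ (fun N x hx => by
    rw [pairH_const_shift μ (a' / l ^ 3) (fun r => K * core r - κ * ψ r)]
    simp only [hH₀, hH₁, pairH, hφ]
    rw [pairSum_rad_sub, pairSum_rad_sub]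
    have e0 : pairSum (rad fun r => κ * ψ r) x = κ * pairSum (rad ψ) x := by
      have := pairSum_rad_lin ψ ψ κ 0 x
      simpa using this
    rw [e0]
    have hΨ : 0 ≤ pairSum (rad ψ) x :=
      Finset.sum_nonneg (fun _ _ => Finset.sum_nonneg (fun _ _ => h0 _))
    have e1 := mul_le_mul_of_nonneg_right hκ hΨ
    have hN : (0 : ℝ) ≤ N := Nat.cast_nonneg N
    have e2 : a' / l ^ 3 / 2 ≤ (1 - 1 / M) * (a / (l + 3) ^ 3 / 2) + 1 / M * (a / l ^ 3) := by
      have f1 : 1 - 1 / (2 * M) ≤ l ^ 3 / (l + 3) ^ 3 := by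
        have g1 : 9 / l ≤ 1 / (2 * M) := by
          rw [div_le_div_iff₀ hl0 (by positivity)]; linarith
        have g2 : 1 - 9 / l ≤ l ^ 3 / (l + 3) ^ 3 := by
          rw [le_div_iff₀ hV']
          have : (1 - 9 / l) * (l + 3) ^ 3 = l ^ 3 - (54 * l + 216 + 243 / l) := by
            field_simp; ring
          have g3 : 0 < 243 / l := by positivity
          linarith
        linarith
      have f2 : a / (l + 3) ^ 3 = a / l ^ 3 * (l ^ 3 / (l + 3) ^ 3) := by field_simp
      have f3 : a' / l ^ 3 ≤ a / l ^ 3 * (1 + 1 / (2 * M)) := by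
        rw [div_mul_eq_mul_div]; exact div_le_div_of_nonneg_right ha' hV.le
      have f4 : 0 < a / l ^ 3 := by positivity
      have f5 : 1 + 1 / (2 * M) ≤ (1 - 1 / M) * (l ^ 3 / (l + 3) ^ 3) + 2 * (1 / M) := by
        have g1 := mul_le_mul_of_nonneg_left f1 (by linarith : 0 ≤ 1 - 1 / M)
        have g2 : 1 / (2 * M) = 1 / M / 2 := by field_simp
        rw [g2] at g1 ⊢
        nlinarith
      have f6 := mul_le_mul_of_nonneg_left f5 f4.le
      rw [f2]
      linarith
    have e3 := mul_le_mul_of_nonneg_right e2 (sq_nonneg (N : ℝ))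
    have e4 : 0 ≤ 1 / M * (N / M) := by positivity
    have e5 : (N : ℝ) / M = 1 / M * N := by ring
    rw [e5] at e4 ⊢
    nlinarith)
  refine key.trans (ENNReal.ofReal_le_ofReal (Real.exp_le_exp.mpr ?_))
  have e1 : 0 ≤ 1 / M * ((l + 3) ^ 3 * T + M) := by positivity
  have e2 : 1 / M * (Real.exp (μ + 1 + K / 2) * l ^ 3) = Real.exp (μ + 1 + K / 2) * l ^ 3 / M := by
    ring
  linarith

end Vale.Agent.P171
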