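import Vale.Agent.P171.KacStep

/-!
The upper Lebowitz-Penrose bound, by averaging over shifted grids.
-/

namespace Vale.Agent.P171

open MeasureTheory Filter Topology Finset Metric
open scoped ENNReal Classical

lemma measurable_same_mul (τ l : ℝ) {φ : ℝ → ℝ} (hm : Measurable φ) :
    Measurable (Function.uncurry (fun x y => same τ l x y * rad φ x y)) :=
  (measurable_same τ l).mul (measurable_rad hm)

lemma grid_factor {τ l L E : ℝ} (hl : 0 < l) (hτ0 : 0 ≤ τ) (hτ : τ ≤ l) (hL : 0 ≤ L) (hE : 0 ≤ E)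
    {φ : ℝ → ℝ} (hm : Measurable φ) (μ : ℝ) (h : Xi φ μ l ≤ ENNReal.ofReal (Real.exp E)) :
    gc (box L) (pairH μ (fun x y => same τ l x y * rad φ x y)) ≤
      ENNReal.ofReal (Real.exp ((L / l + 2) ^ 3 * E)) := by
  have hsub : box L ⊆ ⋃ k ∈ cover l L, cell τ l k := by
    intro x hx
    simp only [Set.mem_iUnion]
    exact ⟨lab τ l x, lab_mem_cover hl hτ0 hτ hx, rfl⟩
  refine (gc_mono_set hsub _).trans ?_
  refine (gc_biUnion_le (cover l L) (cell τ l) (measurableSet_cell τ l) μ
    (measurable_same_mul τ l hm) (fun c c' hc => disjoint_cell τ l hc)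
    (fun c c' hc x hx y hy => ?_)).trans ?_
  · have : lab τ l x ≠ lab τ l y := by
      rw [show lab τ l x = c from hx, show lab τ l y = c' from hy]; exact hc
    simp [same, this]
  · have hcell : ∀ k, gc (cell τ l k) (pairH μ (fun x y => same τ l x y * rad φ x y)) ≤
        ENNReal.ofReal (Real.exp E) := by
      intro k
      rw [gc_pair_congr (measurableSet_cell τ l k) μ (ψ := rad φ) (fun x hx y hy => by
        have : lab τ l x = lab τ l y := (show lab τ l x = k from hx).trans
          (show lab τ l y = k from hy).symm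
        simp [same, this])]
      refine le_trans (gc_mono_set ?_ _) ((gc_shift_box φ μ l (fun c => τ + l * k c)).le.trans h)
      rw [cell_eq hl]
      intro x hx c
      exact ⟨(hx c).1, (hx c).2.le⟩
    refine (Finset.prod_le_prod' (fun k _ => hcell k)).trans ?_
    rw [Finset.prod_const, ← ENNReal.ofReal_pow (Real.exp_pos _).le, ← Real.exp_nat_mul]
    exact ENNReal.ofReal_le_ofReal (Real.exp_le_exp.mpr
      (mul_le_mul_of_nonneg_right (card_cover_le hl hL) hE))

lemma pairSum_lin3 (f g h : Space → Space → ℝ) (a b c : ℝ) {N : ℕ} (x : Fin N → Space) :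
    pairSum (fun u v => a * f u v + b * g u v + c * h u v) x =
      a * pairSum f x + b * pairSum g x + c * pairSum h x := by
  unfold pairSum
  simp_rw [Finset.sum_add_distrib, Finset.mul_sum]

lemma shift_average {K a D R κ μ : ℝ} {J : ℕ} {ψ : ℝ → ℝ} (hK : 0 ≤ K) (h0 : ∀ r, 0 ≤ ψ r)
    (hD : 0 < D) (hψD : ∀ r, D ≤ r → ψ r = 0) (hJ : 0 < J) (hκ0 : 0 ≤ κ)
    (hκ : (J : ℝ) ≤ κ * (J - 3))
    (ha : 0 < a) (hR : 0 < R) (N : ℕ) (x : Fin N → Space) :
    ∃ t ∈ Finset.range J,
      pairH (μ + a / (2 * vB R)) (rad (fun r => K * core r - (ψ r + a * kern R r))) N x ≤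
      pairH (μ + a * (1 + 2 * (J * D) / R) ^ 3 / (J * D) ^ 3 / 2)
        (fun u v => same (t * D) (J * D) u v * rad (fun r => K * core r - κ * ψ r -
          a * (1 + 2 * (J * D) / R) ^ 3 / (J * D) ^ 3) u v) N x := by
  have hJ' : (0 : ℝ) < J := by exact_mod_cast hJ
  have hl : (0 : ℝ) < J * D := by positivity
  set l : ℝ := J * D with hl_def
  set c : ℝ := a * (1 + 2 * l / R) ^ 3 / l ^ 3 with hc
  obtain ⟨t, ht, hle⟩ := Finset.exists_le_of_sum_le (s := Finset.range J)
    (f := fun _ => pairSum (rad ψ) x)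
    (g := fun t : ℕ => κ * pairSum (fun u v => same (t * D) l u v * rad ψ u v) x)
    ⟨0, Finset.mem_range.mpr hJ⟩ (by
      rw [Finset.sum_const, Finset.card_range, nsmul_eq_mul, ← Finset.mul_sum]
      unfold pairSum
      rw [Finset.sum_comm, Finset.mul_sum, Finset.mul_sum]
      refine Finset.sum_le_sum (fun i _ => ?_)
      rw [Finset.sum_comm, Finset.mul_sum, Finset.mul_sum]
      refine Finset.sum_le_sum (fun j _ => ?_)
      rw [← Finset.sum_mul]
      unfold rad
      by_cases hd : dist (x i) (x j) < D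
      · have h1 := sum_same_ge hD hJ hd
        have h2 := mul_le_mul_of_nonneg_left h1 hκ0
        rw [← mul_assoc]
        exact mul_le_mul_of_nonneg_right (hκ.trans h2) (h0 _)
      · rw [hψD _ (not_lt.mp hd)]; simp)
  refine ⟨t, ht, ?_⟩
  have e1 : pairSum (fun u v => same (t * D) l u v * rad (fun r => K * core r - κ * ψ r - c) u v) x =
      K * pairSum (fun u v => same (t * D) l u v * rad core u v) x +
      (-κ) * pairSum (fun u v => same (t * D) l u v * rad ψ u v) x +
      (-c) * pairSum (same (t * D) l) x := by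
    rw [← pairSum_lin3]
    congr 1
    funext u v
    unfold rad; ring
  have e2 : pairSum (rad (fun r => K * core r - (ψ r + a * kern R r))) x =
      K * pairSum (rad core) x - (pairSum (rad ψ) x + a * pairSum (rad (kern R)) x) := by
    rw [pairSum_rad_sub]
    have := pairSum_rad_lin ψ (kern R) 1 a x
    simp only [one_mul] at this
    rw [this]
  have e3 : pairSum (fun u v => same (t * D) l u v * rad core u v) x ≤ pairSum (rad core) x :=
    Finset.sum_le_sum (fun i _ => Finset.sum_le_sum (fun j _ =>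
      mul_le_of_le_one_left (core_nonneg _) (same_le_one _ _ _ _)))
  have e4 := kk_le hR hl (t * D) x
  rw [kk_eq hR, occ_eq] at e4
  have e5 := mul_le_mul_of_nonneg_left e4 (by positivity : 0 ≤ a / 2)
  have e6 : pairSum (rad (kern R)) x = pairSum (fun a b => kern R (dist a b)) x := rfl
  have e7 : a / (2 * vB R) * N = a / 2 * (N / vB R) := by
    have := vB_pos hR
    field_simp
  have e8 : a / 2 * ((1 + 2 * l / R) ^ 3 / l ^ 3 * (N + 2 * pairSum (same (t * D) l) x)) =
      c / 2 * N + c * pairSum (same (t * D) l) x := by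
    rw [hc]; ring
  have e9 := mul_le_mul_of_nonneg_left e3 hK
  unfold pairH
  rw [e1, e2, e6]
  rw [e8] at e5
  nlinarith

lemma kac_upper {K A a D R M μ T B' : ℝ} {J : ℕ} {ψ : ℝ → ℝ} (hK : 0 ≤ K) (hm : Measurable ψ)
    (h0 : ∀ r, 0 ≤ ψ r) (hb : Budget ψ A) (hA : 0 ≤ A) (ha : 0 < a) (hKA : 8 * a + 2 * A ≤ K / 2)
    (hD : 0 < D) (hψD : ∀ r, D ≤ r → ψ r = 0) (hM : 1 ≤ M) (hJ : 3 * M + 3 ≤ J)
    (hl : 18 * M ≤ J * D) (hR : 0 < R) (hlR : (1 + 2 * (J * D) / R) ^ 3 ≤ 1 + 1 / (2 * M))
    (h' : Good (fun r => K * core r - (ψ r + a * kern R r)) B') (hT0 : 0 ≤ T)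
    (hT : ∀ s, P (fun r => K * core r - ψ r) (μ + s) - s ^ 2 / (2 * a) ≤ T) :
    P (fun r => K * core r - (ψ r + a * kern R r)) (μ + a / (2 * vB R)) ≤
      T + (T + 1 + Real.exp (μ + 1 + K / 2)) / M := by
  have hM0 : 0 < M := by linarith
  have hJ0 : 0 < J := by
    have : (0 : ℝ) < J := by linarith
    exact_mod_cast this
  set l : ℝ := J * D with hl_def
  have hl0 : 0 < l := by linarith
  have hκ : (J : ℝ) ≤ (1 + 1 / M) * (J - 3) := by
    have : 3 ≤ 1 / M * (J - 3) := by
      rw [one_div, inv_mul_eq_div, le_div_iff₀ hM0]; linarith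
    linarith
  have hcube := cube_bound (a' := a * (1 + 2 * l / R) ^ 3) (κ := 1 + 1 / M) (l := l) hK hm h0 hb hA
    ha hKA hM hl (mul_le_mul_of_nonneg_left hlR ha.le) le_rfl hT0 hT
  set E : ℝ := (l + 3) ^ 3 * T + M + Real.exp (μ + 1 + K / 2) * l ^ 3 / M with hE
  have hE0 : 0 ≤ E := by positivity
  have hmeas : Measurable (fun r => K * core r - (1 + 1 / M) * ψ r -
      a * (1 + 2 * l / R) ^ 3 / l ^ 3) :=
    ((continuous_core.measurable.const_mul K).sub (hm.const_mul _)).sub_const _
  have hfin : ∀ L, 0 ≤ L → lp (fun r => K * core r - (ψ r + a * kern R r)) (μ + a / (2 * vB R)) L ≤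
      J + (L / l + 2) ^ 3 * E := by
    intro L hL
    rw [h'.lp_le_iff _ hL]
    unfold Xi
    refine (gc_le_sum (measurableSet_box L) (Finset.range J) (fun _ => 1) (fun _ _ => zero_le_one)
      (fun t => pairH (μ + a * (1 + 2 * l / R) ^ 3 / l ^ 3 / 2)
        (fun u v => same (t * D) l u v * rad (fun r => K * core r - (1 + 1 / M) * ψ r -
          a * (1 + 2 * l / R) ^ 3 / l ^ 3) u v))
      (fun t _ N => measurable_pairH _ (measurable_same_mul _ _ hmeas) N) _
      (fun N x _ => ?_)).trans ?_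
    · obtain ⟨t, ht, hle⟩ := shift_average (μ := μ) hK h0 hD hψD hJ0 (by positivity) hκ ha hR N x
      simp only [one_mul]
      exact (Real.exp_le_exp.mpr hle).trans (Finset.single_le_sum
        (f := fun t : ℕ => Real.exp (pairH (μ + a * (1 + 2 * l / R) ^ 3 / l ^ 3 / 2)
        (fun u v => same (t * D) l u v * rad (fun r => K * core r - (1 + 1 / M) * ψ r -
          a * (1 + 2 * l / R) ^ 3 / l ^ 3) u v) N x))
        (fun _ _ => (Real.exp_pos _).le) ht)
    · simp only [ENNReal.ofReal_one, one_mul]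
      refine (Finset.sum_le_sum (g := fun _ => ENNReal.ofReal (Real.exp ((L / l + 2) ^ 3 * E)))
        (fun t ht => grid_factor hl0 (by positivity) ?_ hL hE0 hmeas _ hcube)).trans ?_
      · have : (t : ℝ) ≤ J := by exact_mod_cast (Finset.mem_range.mp ht).le
        exact mul_le_mul_of_nonneg_right this hD.le
      · rw [Finset.sum_const, Finset.card_range, nsmul_eq_mul, Real.exp_add,
          ENNReal.ofReal_mul (Real.exp_pos _).le]
        gcongr
        rw [← ENNReal.ofReal_natCast]
        exact ENNReal.ofReal_le_ofReal (by linarith [Real.add_one_le_exp (J : ℝ)])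
  have hlim : Tendsto (fun L : ℝ => (J : ℝ) / L ^ 3 + (1 / l * L + 2) ^ 3 / L ^ 3 * E) atTop
      (𝓝 (0 + (1 / l) ^ 3 * E)) :=
    (tendsto_const_nhds.div_atTop (tendsto_pow_atTop (by norm_num))).add
      ((tendsto_cube (1 / l) 2).mul_const E)
  have hP := le_of_tendsto_of_tendsto (h'.tendsto_P (μ + a / (2 * vB R))) hlim (by
    filter_upwards [eventually_gt_atTop 0] with L hL
    have hL3 : 0 < L ^ 3 := by positivity
    refine (div_le_div_of_nonneg_right (hfin L hL.le) hL3.le).trans (le_of_eq ?_)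
    have : 1 / l * L = L / l := by ring
    rw [this]; ring)
  refine hP.trans ?_
  have e1 : (1 / l) ^ 3 * E = ((l + 3) / l) ^ 3 * T + M / l ^ 3 + Real.exp (μ + 1 + K / 2) / M := by
    rw [hE]; field_simp
  have e2 : ((l + 3) / l) ^ 3 ≤ 1 + 1 / M := by
    have f1 : (l + 3) / l = 1 + 3 / l := by field_simp
    have f2 : 3 / l ≤ 1 / M / 6 := by
      rw [div_div, div_le_div_iff₀ hl0 (by positivity)]; linarith
    have f3 : 0 ≤ 3 / l := by positivity
    have f4 : 1 / M ≤ 1 := by rw [div_le_one hM0]; exact hM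
    rw [f1]
    nlinarith [mul_nonneg f3 f3, mul_nonneg (mul_nonneg f3 f3) f3]
  have e3 : M / l ^ 3 ≤ 1 / M := by
    rw [div_le_div_iff₀ (by positivity) hM0]
    have f1 : M ≤ l := by linarith
    have f2 : 1 ≤ l := by linarith
    calc M * M ≤ l * l := mul_le_mul f1 f1 hM0.le hl0.le
      _ ≤ l * l * l := le_mul_of_one_le_right (by positivity) f2
      _ = 1 * l ^ 3 := by ring
  have e4 := mul_le_mul_of_nonneg_right e2 hT0
  have e5 : (T + 1 + Real.exp (μ + 1 + K / 2)) / M =
      1 / M * T + 1 / M + Real.exp (μ + 1 + K / 2) / M := by ring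
  linarith

end Vale.Agent.P171
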