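import Vale.Agent.P171.Cells

/-!
The Kac kernel: normalized overlap volume of two balls.
-/

namespace Vale.Agent.P171

open MeasureTheory Filter Topology Finset Metric
open scoped ENNReal Classical

/-- volume of a ball of radius `R` -/
noncomputable def vB (R : ℝ) : ℝ := R ^ 3 * (Real.pi * 4 / 3)

lemma vB_pos {R : ℝ} (hR : 0 < R) : 0 < vB R := by
  unfold vB; have := Real.pi_pos; positivity

lemma volume_ball_ne_top (x : Space) (R : ℝ) : volume (ball x R) ≠ ⊤ :=
  measure_ball_lt_top.ne

lemma real_ball (x : Space) {R : ℝ} (hR : 0 ≤ R) : volume.real (ball x R) = vB R := by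
  have := Real.pi_pos
  rw [Measure.real, EuclideanSpace.volume_ball_fin_three, ← ENNReal.ofReal_pow hR,
    ← ENNReal.ofReal_mul (by positivity), ENNReal.toReal_ofReal (by positivity)]
  rfl

/-- a unit vector -/
noncomputable def e0 : Space := EuclideanSpace.single 0 1

lemma norm_e0 : ‖e0‖ = 1 := by simp [e0]

/-- overlap volume -/
noncomputable def ov (R r : ℝ) : ℝ := volume.real (ball (0 : Space) R ∩ ball (r • e0) R)

/-- the Kac kernel of range `2 R` and integral one -/
noncomputable def kern (R r : ℝ) : ℝ := ov R r / vB R ^ 2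

lemma ov_dist (R : ℝ) (x y : Space) :
    ov R (dist x y) = volume.real (ball x R ∩ ball y R) := by
  have hn : ‖y - x‖ = ‖dist x y • e0‖ := by
    rw [norm_smul, norm_e0, mul_one, Real.norm_of_nonneg dist_nonneg, dist_comm, dist_eq_norm]
  set ρ := (ℝ ∙ ((y - x) - dist x y • e0))ᗮ.reflection with hρ
  have hρv : ρ (y - x) = dist x y • e0 := Submodule.reflection_sub hn
  have hmp : MeasurePreserving (fun z : Space => ρ (z - x)) volume volume :=
    ρ.measurePreserving.comp (measurePreserving_sub_right volume x)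
  have hpre : (fun z : Space => ρ (z - x)) ⁻¹' (ball (0 : Space) R ∩ ball (dist x y • e0) R) =
      ball x R ∩ ball y R := by
    ext z
    simp only [Set.mem_preimage, Set.mem_inter_iff, mem_ball]
    rw [← hρv, LinearIsometryEquiv.dist_map, dist_sub_right, dist_zero_right,
      LinearIsometryEquiv.norm_map, ← dist_eq_norm]
  unfold ov Measure.real
  rw [← hpre, hmp.measure_preimage]
  exact (measurableSet_ball.inter measurableSet_ball).nullMeasurableSet

lemma ov_nonneg (R r : ℝ) : 0 ≤ ov R r := measureReal_nonneg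

lemma ov_le {R : ℝ} (hR : 0 ≤ R) (r : ℝ) : ov R r ≤ vB R := by
  rw [← real_ball (0 : Space) hR]
  exact measureReal_mono Set.inter_subset_left (volume_ball_ne_top _ _)

lemma ov_zero {R : ℝ} (hR : 0 ≤ R) : ov R 0 = vB R := by
  simp [ov, real_ball _ hR]

lemma ov_eq_zero {R r : ℝ} (h : 2 * R ≤ r) (hr : 0 ≤ r) : ov R r = 0 := by
  unfold ov
  have : ball (0 : Space) R ∩ ball (r • e0) R = ∅ := by
    refine Set.disjoint_iff_inter_eq_empty.mp (ball_disjoint_ball ?_)
    rw [dist_comm, dist_zero_right, norm_smul, norm_e0, mul_one, Real.norm_of_nonneg hr]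
    linarith
  simp [this]

lemma ov_sub_le {R : ℝ} (hR : 0 ≤ R) (r r' : ℝ) :
    ov R r - ov R r' ≤ vB (R + |r - r'|) - vB R := by
  have hd : dist (r • e0) (r' • e0) = |r - r'| := by
    rw [dist_eq_norm, ← sub_smul, norm_smul, norm_e0, mul_one, Real.norm_eq_abs]
  have hsub : ball (0 : Space) R ∩ ball (r • e0) R ⊆ (ball (0 : Space) R ∩ ball (r' • e0) R) ∪
      (ball (r' • e0) (R + |r - r'|) \ ball (r' • e0) R) := by
    intro z ⟨hz1, hz2⟩
    by_cases hz : z ∈ ball (r' • e0) R
    · exact Or.inl ⟨hz1, hz⟩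
    · refine Or.inr ⟨?_, hz⟩
      rw [mem_ball] at hz2 ⊢
      linarith [dist_triangle z (r • e0) (r' • e0)]
  have h1 := measureReal_mono (μ := volume) hsub
    (measure_union_ne_top (measure_inter_ne_top_of_left_ne_top (volume_ball_ne_top _ _))
      (measure_ne_top_of_subset Set.sdiff_subset (volume_ball_ne_top _ _)))
  have h2 := measureReal_union_le (μ := volume) (ball (0 : Space) R ∩ ball (r' • e0) R)
    (ball (r' • e0) (R + |r - r'|) \ ball (r' • e0) R)
  rw [measureReal_sdiff (ball_subset_ball (by linarith [abs_nonneg (r - r')])) measurableSet_ball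
    (volume_ball_ne_top _ _), real_ball _ hR, real_ball _ (by positivity)] at h2
  unfold ov
  linarith

lemma continuous_ov {R : ℝ} (hR : 0 ≤ R) : Continuous (ov R) := by
  rw [continuous_iff_continuousAt]
  intro r
  rw [ContinuousAt, tendsto_iff_dist_tendsto_zero]
  have hc : Continuous (fun r' : ℝ => vB (R + |r' - r|) - vB R) := by
    unfold vB; fun_prop
  have ht := hc.tendsto r
  simp only [sub_self, abs_zero, add_zero] at ht
  refine squeeze_zero (fun _ => dist_nonneg) (fun r' => ?_) ht
  rw [Real.dist_eq, abs_le]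
  have h1 := ov_sub_le hR r' r
  have h2 := ov_sub_le hR r r'
  rw [abs_sub_comm r r'] at h2
  constructor <;> linarith

lemma continuous_kern {R : ℝ} (hR : 0 ≤ R) : Continuous (kern R) :=
  (continuous_ov hR).div_const _

lemma kern_nonneg (R r : ℝ) : 0 ≤ kern R r := div_nonneg (ov_nonneg R r) (sq_nonneg _)

lemma kern_le {R : ℝ} (hR : 0 < R) (r : ℝ) : kern R r ≤ 1 / vB R := by
  unfold kern
  have := vB_pos hR
  rw [div_le_div_iff₀ (by positivity) this]
  nlinarith [ov_le hR.le r]

lemma kern_zero {R : ℝ} (hR : 0 < R) : kern R 0 = 1 / vB R := by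
  unfold kern
  have := vB_pos hR
  rw [ov_zero hR.le]; field_simp

lemma kern_eq_zero {R r : ℝ} (h : 2 * R ≤ r) (hr : 0 ≤ r) : kern R r = 0 := by
  unfold kern; rw [ov_eq_zero h hr, zero_div]

/-- number of particles within distance `R` of `y` -/
noncomputable def cnt (R : ℝ) {N : ℕ} (x : Fin N → Space) (y : Space) : ℝ :=
  ∑ i, (ball (x i) R).indicator 1 y

lemma integrable_ind {s : Set Space} (hs : MeasurableSet s) (h : volume s ≠ ⊤) :
    Integrable (s.indicator (1 : Space → ℝ)) :=
  (integrableOn_const h).integrable_indicator hs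

lemma cnt_sq (R : ℝ) {N : ℕ} (x : Fin N → Space) (y : Space) :
    cnt R x y ^ 2 = ∑ i, ∑ j, (ball (x i) R ∩ ball (x j) R).indicator 1 y := by
  unfold cnt
  rw [sq, Finset.sum_mul_sum]
  refine Finset.sum_congr rfl (fun i _ => Finset.sum_congr rfl (fun j _ => ?_))
  rw [Set.inter_indicator_one]; rfl

lemma integrable_cnt (R : ℝ) {N : ℕ} (x : Fin N → Space) : Integrable (cnt R x) :=
  integrable_finsetSum _ (fun _ _ => integrable_ind measurableSet_ball (volume_ball_ne_top _ _))

lemma integrable_inter (R : ℝ) (a b : Space) :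
    Integrable ((ball a R ∩ ball b R).indicator (1 : Space → ℝ)) :=
  integrable_ind (measurableSet_ball.inter measurableSet_ball)
    (measure_inter_ne_top_of_left_ne_top (volume_ball_ne_top _ _))

lemma integrable_cnt_sq (R : ℝ) {N : ℕ} (x : Fin N → Space) :
    Integrable (fun y => cnt R x y ^ 2) := by
  simp_rw [cnt_sq]
  exact integrable_finsetSum _ (fun i _ => integrable_finsetSum _
    (fun j _ => integrable_inter R _ _))

lemma integral_cnt {R : ℝ} (hR : 0 ≤ R) {N : ℕ} (x : Fin N → Space) :
    ∫ y, cnt R x y = N * vB R := by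
  unfold cnt
  rw [integral_finsetSum _ (fun i _ => integrable_ind measurableSet_ball (volume_ball_ne_top _ _))]
  simp_rw [integral_indicator_one measurableSet_ball, real_ball _ hR]
  simp

lemma integral_cnt_sq (R : ℝ) {N : ℕ} (x : Fin N → Space) :
    ∫ y, cnt R x y ^ 2 = ∑ i, ∑ j, ov R (dist (x i) (x j)) := by
  simp_rw [cnt_sq]
  rw [integral_finsetSum _ (fun i _ => integrable_finsetSum _ (fun j _ => integrable_inter R _ _))]
  refine Finset.sum_congr rfl (fun i _ => ?_)
  rw [integral_finsetSum _ (fun j _ => integrable_inter R _ _)]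
  refine Finset.sum_congr rfl (fun j _ => ?_)
  rw [integral_indicator_one (measurableSet_ball.inter measurableSet_ball), ov_dist]

/-- the full double sum of the kernel -/
noncomputable def kk (R : ℝ) {N : ℕ} (x : Fin N → Space) : ℝ :=
  ∑ i, ∑ j, kern R (dist (x i) (x j))

lemma kk_eq_integral (R : ℝ) {N : ℕ} (x : Fin N → Space) :
    kk R x = (∫ y, cnt R x y ^ 2) / vB R ^ 2 := by
  rw [integral_cnt_sq]
  unfold kk kern
  simp_rw [Finset.sum_div]

lemma kk_eq {R : ℝ} (hR : 0 < R) {N : ℕ} (x : Fin N → Space) :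
    kk R x = N / vB R + 2 * pairSum (fun a b => kern R (dist a b)) x := by
  unfold kk
  rw [double_sum_eq (fun a b => kern R (dist a b)) (fun a b => by rw [dist_comm])]
  simp [kern_zero hR, div_eq_mul_inv]

/-- lower bound by positive definiteness -/
lemma kk_ge {R L a : ℝ} (hR : 0 < R) (hL : 0 ≤ L) (ha : 0 < a) (h : ℝ) {N : ℕ}
    (x : Fin N → Space) (hx : ∀ i, x i ∈ box L) :
    h * N - h ^ 2 / (2 * a) * (L + 2 * R) ^ 3 ≤ a / 2 * kk R x := by
  have hv := vB_pos hR
  set Ω : Set Space := {y : Space | ∀ c, y c ∈ Set.Icc (-R) (L + R)} with hΩ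
  have hΩm : MeasurableSet Ω := measurableSet_rect _ (fun _ => measurableSet_Icc)
  have hΩv : volume Ω = ENNReal.ofReal ((L + 2 * R) ^ 3) := by
    rw [hΩ, volume_rect _ (fun _ => measurableSet_Icc)]
    simp only [Real.volume_Icc, Finset.prod_const, Finset.card_univ, Fintype.card_fin]
    rw [ENNReal.ofReal_pow (by positivity)]
    congr 2; ring
  have hΩt : volume Ω ≠ ⊤ := by rw [hΩv]; exact ENNReal.ofReal_ne_top
  have hΩr : volume.real Ω = (L + 2 * R) ^ 3 := by
    rw [Measure.real, hΩv, ENNReal.toReal_ofReal (by positivity)]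
  have hpt : ∀ y, h / vB R * cnt R x y - h ^ 2 / (2 * a) * Ω.indicator 1 y ≤
      a / 2 / vB R ^ 2 * cnt R x y ^ 2 := by
    intro y
    by_cases hy : y ∈ Ω
    · rw [Set.indicator_of_mem hy, Pi.one_apply, mul_one]
      have : a / 2 / vB R ^ 2 * cnt R x y ^ 2 - (h / vB R * cnt R x y - h ^ 2 / (2 * a)) =
          (a * (cnt R x y / vB R) - h) ^ 2 / (2 * a) := by
        field_simp; ring
      have h2 : 0 ≤ (a * (cnt R x y / vB R) - h) ^ 2 / (2 * a) := by positivity
      linarith
    · have hc : cnt R x y = 0 := by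
        unfold cnt
        refine Finset.sum_eq_zero (fun i _ => Set.indicator_of_notMem (fun hyi => hy ?_) _)
        intro c
        have h1 := PiLp.dist_apply_le y (x i) c
        rw [mem_ball] at hyi
        rw [Real.dist_eq] at h1
        have h2 := abs_lt.mp (h1.trans_lt hyi)
        obtain ⟨h3, h4⟩ := hx i c
        constructor <;> linarith [h2.1, h2.2]
      rw [Set.indicator_of_notMem hy, hc]; simp
  have hint := integral_mono (((integrable_cnt R x).const_mul (h / vB R)).sub
    ((integrable_ind hΩm hΩt).const_mul (h ^ 2 / (2 * a))))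
    ((integrable_cnt_sq R x).const_mul (a / 2 / vB R ^ 2)) hpt
  simp only [Pi.sub_apply] at hint
  rw [integral_sub ((integrable_cnt R x).const_mul _) ((integrable_ind hΩm hΩt).const_mul _),
    integral_const_mul, integral_const_mul, integral_const_mul, integral_cnt hR.le,
    integral_indicator_one hΩm, hΩr] at hint
  rw [kk_eq_integral]
  have e1 : h / vB R * (N * vB R) = h * N := by field_simp
  have e2 : a / 2 / vB R ^ 2 * ∫ y, cnt R x y ^ 2 = a / 2 * ((∫ y, cnt R x y ^ 2) / vB R ^ 2) := by
    ring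
  linarith

/-- upper bound by the occupation numbers of a finer grid -/
lemma kk_le {R l : ℝ} (hR : 0 < R) (hl : 0 < l) (τ : ℝ) {N : ℕ} (x : Fin N → Space) :
    kk R x ≤ (1 + 2 * l / R) ^ 3 / l ^ 3 * occ τ l x := by
  have hv := vB_pos hR
  have hl3 : 0 < l ^ 3 := by positivity
  have hpt : ∀ y, cnt R x y ^ 2 ≤ vB (R + 2 * l) / l ^ 3 *
      ∑ i, ∑ j, same τ l (x i) (x j) * (ball (x i) R).indicator 1 y := by
    intro y
    set I : Finset (Fin N) := Finset.univ.filter (fun i => y ∈ ball (x i) R) with hI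
    have hcnt : cnt R x y = I.card := by
      unfold cnt
      simp_rw [Set.indicator_apply, Pi.one_apply]
      rw [Finset.sum_boole]
    set T := I.image (fun i => lab τ l (x i))
    have h1 := card_sq_le τ l x I T (fun i hi => Finset.mem_image_of_mem _ hi)
    have h2 : (T.card : ℝ) * l ^ 3 ≤ vB (R + 2 * l) := by
      rw [← real_ball y (by positivity)]
      refine card_labels_le (τ := τ) hl T (volume_ball_ne_top _ _) (fun k hk z hz => ?_)
      obtain ⟨i, hi, rfl⟩ := Finset.mem_image.mp hk
      have hi' : y ∈ ball (x i) R := (Finset.mem_filter.mp hi).2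
      have hz' := dist_le_of_lab_eq hl (show lab τ l z = lab τ l (x i) from hz)
      rw [mem_ball] at hi' ⊢
      rw [dist_comm] at hi'
      linarith [dist_triangle z (x i) y]
    have h3 : ∑ i ∈ I, ∑ j ∈ I, same τ l (x i) (x j) ≤
        ∑ i, ∑ j, same τ l (x i) (x j) * (ball (x i) R).indicator 1 y := by
      have hnn : ∀ i j, 0 ≤ same τ l (x i) (x j) * (ball (x i) R).indicator (1 : Space → ℝ) y :=
        fun i j => mul_nonneg (same_nonneg _ _ _ _)
          (Set.indicator_nonneg (fun _ _ => zero_le_one) _)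
      calc ∑ i ∈ I, ∑ j ∈ I, same τ l (x i) (x j)
          ≤ ∑ i ∈ I, ∑ j, same τ l (x i) (x j) * (ball (x i) R).indicator 1 y := by
            refine Finset.sum_le_sum (fun i hi => ?_)
            have hi' : y ∈ ball (x i) R := (Finset.mem_filter.mp hi).2
            simp_rw [Set.indicator_of_mem hi', Pi.one_apply, mul_one]
            exact Finset.sum_le_sum_of_subset_of_nonneg (Finset.subset_univ _)
              (fun j _ _ => same_nonneg _ _ _ _)
        _ ≤ _ := Finset.sum_le_sum_of_subset_of_nonneg (Finset.subset_univ _)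
              (fun i _ _ => Finset.sum_nonneg (fun j _ => hnn i j))
    have h4 : (T.card : ℝ) ≤ vB (R + 2 * l) / l ^ 3 := by rw [le_div_iff₀ hl3]; exact h2
    rw [hcnt]
    refine h1.trans (mul_le_mul h4 h3 ?_ ?_)
    · exact Finset.sum_nonneg (fun _ _ => Finset.sum_nonneg (fun _ _ => same_nonneg _ _ _ _))
    · exact div_nonneg (vB_pos (by positivity)).le hl3.le
  have hi : ∀ i j, Integrable (fun y => same τ l (x i) (x j) *
      (ball (x i) R).indicator (1 : Space → ℝ) y) := fun i j =>
    (integrable_ind measurableSet_ball (volume_ball_ne_top _ _)).const_mul _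
  have hint := integral_mono (integrable_cnt_sq R x)
    ((integrable_finsetSum _ (fun i _ => integrable_finsetSum _ (fun j _ => hi i j))).const_mul
      (vB (R + 2 * l) / l ^ 3)) hpt
  rw [integral_const_mul, integral_finsetSum _
    (fun i _ => integrable_finsetSum _ (fun j _ => hi i j))] at hint
  simp_rw [integral_finsetSum _ (fun j _ => hi _ j), integral_const_mul,
    integral_indicator_one measurableSet_ball, real_ball _ hR.le, ← Finset.sum_mul] at hint
  rw [kk_eq_integral, div_le_iff₀ (by positivity)]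
  refine hint.trans (le_of_eq ?_)
  unfold occ vB
  field_simp

end Vale.Agent.P171
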