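import Mathlib

/-!
An approximate kink of a convex function becomes a kink of its sup-convolution with a parabola.
-/

namespace Vale.Agent.P171

open Filter Topology Set

lemma secdiff_mono {p : ℝ → ℝ} (hp : ConvexOn ℝ univ p) {ν δ t Δ : ℝ} (hδ : 0 < δ) (ht : δ ≤ t)
    (h : Δ * δ ≤ p (ν + δ) + p (ν - δ) - 2 * p ν) : Δ * t ≤ p (ν + t) + p (ν - t) - 2 * p ν := by
  have ht0 : 0 < t := by linarith
  have hl0 : 0 ≤ δ / t := by positivity
  have hl1 : 0 ≤ 1 - δ / t := by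
    have : δ / t ≤ 1 := by rw [div_le_one ht0]; exact ht
    linarith
  have h1 := hp.2 (mem_univ ν) (mem_univ (ν + t)) hl1 hl0 (by ring)
  have h2 := hp.2 (mem_univ ν) (mem_univ (ν - t)) hl1 hl0 (by ring)
  simp only [smul_eq_mul] at h1 h2
  have e1 : (1 - δ / t) * ν + δ / t * (ν + t) = ν + δ := by field_simp; ring
  have e2 : (1 - δ / t) * ν + δ / t * (ν - t) = ν - δ := by field_simp; ring
  rw [e1] at h1
  rw [e2] at h2
  have h3 : Δ * δ ≤ δ / t * (p (ν + t) + p (ν - t) - 2 * p ν) := by linarith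
  rw [div_mul_eq_mul_div, le_div_iff₀ ht0] at h3
  have h4 : δ * (Δ * t) ≤ δ * (p (ν + t) + p (ν - t) - 2 * p ν) := by linarith
  exact le_of_mul_le_mul_left h4 hδ

/-- at a point where a convex function touches a parabola from below, it lies above the tangent -/
lemma touch_bound {p : ℝ → ℝ} (hp : ConvexOn ℝ univ p) {a μ T ν₁ : ℝ} (ha : 0 < a)
    (hT : ∀ ν, p ν - (ν - μ) ^ 2 / (2 * a) ≤ T) (h1 : p ν₁ - (ν₁ - μ) ^ 2 / (2 * a) = T) (ν : ℝ) :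
    T - (p ν - (ν - μ) ^ 2 / (2 * a)) ≤ (ν - ν₁) ^ 2 / (2 * a) := by
  refine le_of_forall_pos_le_add (fun ε hε => ?_)
  set d := ν - ν₁ with hd
  have hpos : 0 < d ^ 2 / (2 * a) + 1 := by positivity
  set s : ℝ := ε / (d ^ 2 / (2 * a) + 1) with hs
  have hs0 : 0 < s := by positivity
  have h2 := hp.2 (mem_univ ν) (mem_univ (ν₁ - s * d)) 
    (by positivity : 0 ≤ s / (1 + s)) (by positivity : 0 ≤ 1 / (1 + s)) (by field_simp; ring)
  simp only [smul_eq_mul] at h2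
  have e1 : s / (1 + s) * ν + 1 / (1 + s) * (ν₁ - s * d) = ν₁ := by
    rw [hd]; field_simp; ring
  rw [e1] at h2
  have h3 : (1 + s) * p ν₁ ≤ s * p ν + p (ν₁ - s * d) := by
    have := mul_le_mul_of_nonneg_left h2 (by positivity : 0 ≤ 1 + s)
    have e2 : (1 + s) * (s / (1 + s) * p ν + 1 / (1 + s) * p (ν₁ - s * d)) =
        s * p ν + p (ν₁ - s * d) := by field_simp
    linarith
  have h4 := hT (ν₁ - s * d)
  have h5 : s * (T - (p ν - (ν - μ) ^ 2 / (2 * a))) ≤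
      s * (d ^ 2 / (2 * a) + s * (d ^ 2 / (2 * a))) := by
    have e3 : (ν₁ - s * d - μ) ^ 2 / (2 * a) + s * ((ν - μ) ^ 2 / (2 * a)) -
        (1 + s) * ((ν₁ - μ) ^ 2 / (2 * a)) = s * (d ^ 2 / (2 * a) + s * (d ^ 2 / (2 * a))) := by
      have : ν = ν₁ + d := by rw [hd]; ring
      rw [this]; field_simp; ring
    nlinarith
  have h6 := le_of_mul_le_mul_left h5 hs0
  have h7 : s * (d ^ 2 / (2 * a)) ≤ ε := by
    rw [hs, div_mul_eq_mul_div, div_le_iff₀ hpos]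
    nlinarith
  linarith

lemma kink_step {p q : ℝ → ℝ} (hconv : ConvexOn ℝ univ p) (hmono : Monotone p)
    (h0 : ∀ ν, 0 ≤ p ν) {a C ν₀ δ Δ η : ℝ} (ha : 0 < a) (hC : 0 ≤ C) (hδ : 0 < δ) (hΔ : 0 < Δ)
    (hδa : δ ≤ a * Δ / 2) (hk : Δ * δ ≤ p (ν₀ + δ) + p (ν₀ - δ) - 2 * p ν₀)
    (hgrow : ∀ μ, μ ≤ ν₀ → ∀ s, p (μ + s) ≤ C + s ^ 2 / (4 * a))
    (hlow : ∀ μ s, p (μ + s) - s ^ 2 / (2 * a) ≤ q μ)
    (hup : ∀ μ, μ ≤ ν₀ → ∀ T, 0 ≤ T → T ≤ C → (∀ s, p (μ + s) - s ^ 2 / (2 * a) ≤ T) →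
      q μ ≤ T + η) :
    ∃ μ, μ ≤ ν₀ ∧ ∀ t, 0 ≤ t → Δ * t - t ^ 2 / a - 2 * η ≤ q (μ + t) + q (μ - t) - 2 * q μ := by
  have hcont : Continuous p := continuousOn_univ.mp (hconv.continuousOn isOpen_univ)
  set H : ℝ := Real.sqrt (4 * a * C) with hH
  have hH0 : 0 ≤ H := Real.sqrt_nonneg _
  have hH2 : H ^ 2 = 4 * a * C := Real.sq_sqrt (by positivity)
  set G : ℝ → ℝ → ℝ := fun μ ν => p ν - (ν - μ) ^ 2 / (2 * a) with hG
  have hGc : Continuous (Function.uncurry G) := by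
    simp only [hG]
    unfold Function.uncurry
    fun_prop
  have hGc' : ∀ μ, Continuous (G μ) := fun μ => hGc.comp (Continuous.prodMk_right μ)
  have hGneg : ∀ μ, μ ≤ ν₀ → ∀ ν, μ + H ≤ ν → G μ ν ≤ 0 := by
    intro μ hμ ν hν
    have h1 := hgrow μ hμ (ν - μ)
    rw [add_sub_cancel] at h1
    have h2 : H ^ 2 ≤ (ν - μ) ^ 2 := pow_le_pow_left₀ hH0 (by linarith) 2
    have h3 : C ≤ (ν - μ) ^ 2 / (4 * a) := by rw [le_div_iff₀ (by positivity)]; linarith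
    have h4 : (ν - μ) ^ 2 / (2 * a) = 2 * ((ν - μ) ^ 2 / (4 * a)) := by field_simp; ring
    simp only [hG]
    linarith
  set Km : Set ℝ := Icc (ν₀ - H) ν₀
  set Kp : Set ℝ := Icc ν₀ (ν₀ + H)
  have hKm : Km.Nonempty := ⟨ν₀, by constructor <;> linarith⟩
  have hKp : Kp.Nonempty := ⟨ν₀, by constructor <;> linarith⟩
  set Qm : ℝ → ℝ := fun μ => sSup (G μ '' Km)
  set Qp : ℝ → ℝ := fun μ => sSup (G μ '' Kp)
  have hQm : Continuous Qm := isCompact_Icc.continuous_sSup hGc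
  have hQp : Continuous Qp := isCompact_Icc.continuous_sSup hGc
  have lem : ∀ μ, ∀ ν ∈ Km, G μ ν ≤ Qm μ := fun μ ν hν =>
    le_csSup (isCompact_Icc.bddAbove_image (hGc' μ).continuousOn) (mem_image_of_mem _ hν)
  have lep : ∀ μ, ∀ ν ∈ Kp, G μ ν ≤ Qp μ := fun μ ν hν =>
    le_csSup (isCompact_Icc.bddAbove_image (hGc' μ).continuousOn) (mem_image_of_mem _ hν)
  have hGdiag : ∀ μ, G μ μ = p μ := fun μ => by simp [hG]
  have hA : Qp (ν₀ - H) - Qm (ν₀ - H) ≤ 0 := by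
    have h1 : Qp (ν₀ - H) ≤ 0 := csSup_le (hKp.image _) (by
      rintro _ ⟨ν, hν, rfl⟩
      exact hGneg _ (by linarith) ν (by linarith [hν.1]))
    have h2 := lem (ν₀ - H) (ν₀ - H) ⟨le_rfl, by linarith⟩
    rw [hGdiag] at h2
    linarith [h0 (ν₀ - H)]
  have hB : 0 ≤ Qp ν₀ - Qm ν₀ := by
    have h1 : Qm ν₀ ≤ p ν₀ := csSup_le (hKm.image _) (by
      rintro _ ⟨ν, hν, rfl⟩
      have := hmono hν.2
      have h3 : 0 ≤ (ν - ν₀) ^ 2 / (2 * a) := by positivity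
      simp only [hG]; linarith)
    have h2 := lep ν₀ ν₀ ⟨le_rfl, by linarith⟩
    rw [hGdiag] at h2
    linarith
  obtain ⟨μ, hμ, hμ0⟩ := intermediate_value_Icc (by linarith : ν₀ - H ≤ ν₀)
    (hQp.sub hQm).continuousOn (⟨hA, hB⟩ : (0 : ℝ) ∈ Icc _ _)
  have hEq : Qp μ = Qm μ := by simpa [sub_eq_zero] using hμ0
  obtain ⟨ν₁, hν₁, h1⟩ := isCompact_Icc.exists_sSup_image_eq hKm (hGc' μ).continuousOn
  obtain ⟨ν₂, hν₂, h2⟩ := isCompact_Icc.exists_sSup_image_eq hKp (hGc' μ).continuousOn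
  set T := Qm μ with hTdef
  have h1' : G μ ν₁ = T := h1.symm
  have h2' : G μ ν₂ = T := by rw [← hEq]; exact h2.symm
  have hpT : p μ ≤ T := by
    have := lem μ μ hμ
    rwa [hGdiag] at this
  have hT0 : 0 ≤ T := (h0 μ).trans hpT
  have hT : ∀ ν, G μ ν ≤ T := by
    intro ν
    by_cases c1 : ν < ν₀ - H
    · have := hmono (show ν ≤ μ by linarith [hμ.1])
      have h3 : 0 ≤ (ν - μ) ^ 2 / (2 * a) := by positivity
      simp only [hG]; linarith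
    by_cases c2 : ν ≤ ν₀
    · exact lem μ ν ⟨not_lt.mp c1, c2⟩
    by_cases c3 : ν ≤ ν₀ + H
    · rw [← hEq]; exact lep μ ν ⟨(not_le.mp c2).le, c3⟩
    · exact (hGneg μ hμ.2 ν (by linarith [hμ.2])).trans hT0
  have hTC : T ≤ C := by
    rw [← h1']
    have h3 := hgrow μ hμ.2 (ν₁ - μ)
    rw [add_sub_cancel] at h3
    have h4 : (ν₁ - μ) ^ 2 / (2 * a) = 2 * ((ν₁ - μ) ^ 2 / (4 * a)) := by field_simp; ring
    have h5 : 0 ≤ (ν₁ - μ) ^ 2 / (4 * a) := by positivity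
    simp only [hG]; linarith
  have hq : q μ ≤ T + η := hup μ hμ.2 T hT0 hTC (fun s => by
    have := hT (μ + s)
    simpa [hG] using this)
  have hgap : a * Δ ^ 2 / 8 ≤ T - G μ ν₀ := by
    have h3 := secdiff_mono hconv hδ hδa hk
    have h4 := hT (ν₀ + a * Δ / 2)
    have h5 := hT (ν₀ - a * Δ / 2)
    have e1 : (ν₀ + a * Δ / 2 - μ) ^ 2 / (2 * a) + (ν₀ - a * Δ / 2 - μ) ^ 2 / (2 * a) =
        2 * ((ν₀ - μ) ^ 2 / (2 * a)) + a * Δ ^ 2 / 4 := by field_simp; ring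
    simp only [hG] at h4 h5 ⊢
    linarith
  have hd1 : a * Δ / 2 ≤ ν₀ - ν₁ := by
    have h3 := touch_bound hconv ha hT h1' ν₀
    have h4 : (a * Δ / 2) ^ 2 ≤ (ν₀ - ν₁) ^ 2 := by
      have h5 : a * Δ ^ 2 / 8 ≤ (ν₀ - ν₁) ^ 2 / (2 * a) := hgap.trans h3
      rw [le_div_iff₀ (by positivity)] at h5
      linarith
    exact (pow_le_pow_iff_left₀ (by positivity) (by linarith [hν₁.2]) two_ne_zero).mp h4
  have hd2 : a * Δ / 2 ≤ ν₂ - ν₀ := by
    have h3 := touch_bound hconv ha hT h2' ν₀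
    have h4 : (a * Δ / 2) ^ 2 ≤ (ν₂ - ν₀) ^ 2 := by
      have h5 : a * Δ ^ 2 / 8 ≤ (ν₀ - ν₂) ^ 2 / (2 * a) := hgap.trans h3
      rw [le_div_iff₀ (by positivity)] at h5
      nlinarith
    exact (pow_le_pow_iff_left₀ (by positivity) (by linarith [hν₂.1]) two_ne_zero).mp h4
  refine ⟨μ, hμ.2, fun t ht => ?_⟩
  have h3 := hlow (μ + t) (ν₂ - (μ + t))
  have h4 := hlow (μ - t) (ν₁ - (μ - t))
  rw [add_sub_cancel] at h3 h4
  have e1 : (ν₂ - (μ + t)) ^ 2 / (2 * a) + (ν₁ - (μ - t)) ^ 2 / (2 * a) =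
      (ν₂ - μ) ^ 2 / (2 * a) + (ν₁ - μ) ^ 2 / (2 * a) - t * ((ν₂ - ν₁) / a) + t ^ 2 / a := by
    field_simp; ring
  have e2 : Δ ≤ (ν₂ - ν₁) / a := by rw [le_div_iff₀ ha]; linarith
  have e3 := mul_le_mul_of_nonneg_left e2 ht
  simp only [hG] at h1' h2'
  linarith

lemma not_differentiableAt_of_secdiff {p : ℝ → ℝ} {μ Δ : ℝ} (hΔ : 0 < Δ)
    (h : ∀ t, 0 < t → Δ * t ≤ p (μ + t) + p (μ - t) - 2 * p μ) : ¬ DifferentiableAt ℝ p μ := by
  intro hd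
  have h1 : HasDerivAt (fun t => p (μ + t)) (deriv p μ) 0 := by
    have : HasDerivAt p (deriv p μ) (μ + 0) := by simpa using hd.hasDerivAt
    exact this.comp_const_add μ 0
  have h2 : HasDerivAt (fun t => p (μ - t)) (-deriv p μ) 0 := by
    have : HasDerivAt p (deriv p μ) (μ - 0) := by simpa using hd.hasDerivAt
    exact this.comp_const_sub μ 0
  have h3 : HasDerivAt (fun t => p (μ + t) + p (μ - t) - 2 * p μ) 0 0 := by
    simpa using (h1.add h2).sub_const (2 * p μ)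
  have h4 := hasDerivAt_iff_tendsto_slope_zero.mp h3
  have h5 := h4.mono_left (nhdsGT_le_nhdsNE (0 : ℝ))
  have h6 : Δ ≤ 0 := ge_of_tendsto h5 (by
    filter_upwards [self_mem_nhdsWithin] with t ht
    have ht' : 0 < t := ht
    simp only [zero_add, add_zero, sub_zero, smul_eq_mul]
    rw [inv_mul_eq_div, le_div_iff₀ ht']
    linarith [h t ht'])
  linarith

end Vale.Agent.P171
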