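import Vale.Agent.P171.Kernel

/-!
The infinite volume pressure of a stable potential which is attractive beyond distance three.
-/

namespace Vale.Agent.P171

open MeasureTheory Filter Topology Finset Metric
open scoped ENNReal Classical

/-- radial pair function -/
noncomputable def rad (φ : ℝ → ℝ) : Space → Space → ℝ := fun a b => φ (dist a b)

lemma measurable_rad {φ : ℝ → ℝ} (h : Measurable φ) : Measurable (Function.uncurry (rad φ)) :=
  h.comp measurable_dist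

/-- measurable, stable with constant `B`, attractive beyond distance three -/
structure Good (φ : ℝ → ℝ) (B : ℝ) : Prop where
  meas : Measurable φ
  stab : ∀ (N : ℕ) (x : Fin N → Space), -(B * N) ≤ pairSum (rad φ) x
  attr : ∀ r, 3 ≤ r → φ r ≤ 0

/-- partition function of a box -/
noncomputable def Xi (φ : ℝ → ℝ) (μ L : ℝ) : ℝ≥0∞ := gc (box L) (pairH μ (rad φ))

/-- its logarithm -/
noncomputable def lp (φ : ℝ → ℝ) (μ L : ℝ) : ℝ := Real.log (Xi φ μ L).toReal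

/-- the pressure -/
noncomputable def P (φ : ℝ → ℝ) (μ : ℝ) : ℝ := ⨆ L : Set.Ici (0 : ℝ), lp φ μ L / ((L : ℝ) + 3) ^ 3

variable {φ : ℝ → ℝ} {B : ℝ}

lemma Good.Xi_le (h : Good φ B) (μ : ℝ) {L : ℝ} (hL : 0 ≤ L) :
    Xi φ μ L ≤ ENNReal.ofReal (Real.exp (Real.exp (μ + B) * L ^ 3)) :=
  gc_le_of_le (measurableSet_box L) (by positivity) (volume_box hL).le (fun N x _ => by
    unfold pairH; linarith [h.stab N x])

lemma Good.Xi_ne_top (h : Good φ B) (μ : ℝ) {L : ℝ} (hL : 0 ≤ L) : Xi φ μ L ≠ ⊤ :=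
  ne_top_of_le_ne_top ENNReal.ofReal_ne_top (h.Xi_le μ hL)

lemma one_le_Xi (φ : ℝ → ℝ) (μ L : ℝ) : 1 ≤ Xi φ μ L := one_le_gc _ _ _

lemma Good.Xi_eq (h : Good φ B) (μ : ℝ) {L : ℝ} (hL : 0 ≤ L) :
    Xi φ μ L = ENNReal.ofReal (Real.exp (lp φ μ L)) := by
  unfold lp
  rw [Real.exp_log, ENNReal.ofReal_toReal (h.Xi_ne_top μ hL)]
  exact ENNReal.toReal_pos (by
    intro h0; have := one_le_Xi φ μ L; rw [h0] at this; simp at this) (h.Xi_ne_top μ hL)

lemma Good.lp_le_iff (h : Good φ B) (μ : ℝ) {L : ℝ} (hL : 0 ≤ L) (c : ℝ) :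
    lp φ μ L ≤ c ↔ Xi φ μ L ≤ ENNReal.ofReal (Real.exp c) := by
  rw [h.Xi_eq μ hL, ENNReal.ofReal_le_ofReal_iff (Real.exp_pos _).le, Real.exp_le_exp]

lemma Good.le_lp_iff (h : Good φ B) (μ : ℝ) {L : ℝ} (hL : 0 ≤ L) (c : ℝ) :
    c ≤ lp φ μ L ↔ ENNReal.ofReal (Real.exp c) ≤ Xi φ μ L := by
  rw [h.Xi_eq μ hL, ENNReal.ofReal_le_ofReal_iff (Real.exp_pos _).le, Real.exp_le_exp]

lemma Good.lp_nonneg (h : Good φ B) (μ : ℝ) {L : ℝ} (hL : 0 ≤ L) : 0 ≤ lp φ μ L := by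
  rw [h.le_lp_iff μ hL]; simpa using one_le_Xi φ μ L

lemma Good.lp_le (h : Good φ B) (μ : ℝ) {L : ℝ} (hL : 0 ≤ L) :
    lp φ μ L ≤ Real.exp (μ + B) * L ^ 3 := (h.lp_le_iff μ hL _).mpr (h.Xi_le μ hL)

lemma Good.ratio_le (h : Good φ B) (μ : ℝ) (L : Set.Ici (0 : ℝ)) :
    lp φ μ L / ((L : ℝ) + 3) ^ 3 ≤ Real.exp (μ + B) := by
  have hL : (0 : ℝ) ≤ L := L.2
  rw [div_le_iff₀ (by positivity)]
  refine (h.lp_le μ hL).trans (mul_le_mul_of_nonneg_left ?_ (Real.exp_pos _).le)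
  exact pow_le_pow_left₀ hL (by linarith) 3

lemma Good.bdd (h : Good φ B) (μ : ℝ) :
    BddAbove (Set.range (fun L : Set.Ici (0 : ℝ) => lp φ μ L / ((L : ℝ) + 3) ^ 3)) :=
  ⟨Real.exp (μ + B), by rintro _ ⟨L, rfl⟩; exact h.ratio_le μ L⟩

lemma Good.P_le (h : Good φ B) (μ : ℝ) : P φ μ ≤ Real.exp (μ + B) :=
  ciSup_le (h.ratio_le μ)

lemma Good.lp_le_P (h : Good φ B) (μ : ℝ) {L : ℝ} (hL : 0 ≤ L) :
    lp φ μ L ≤ (L + 3) ^ 3 * P φ μ := by
  have := le_ciSup (h.bdd μ) ⟨L, hL⟩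
  rw [div_le_iff₀ (by positivity), mul_comm] at this
  exact this

lemma Good.P_nonneg (h : Good φ B) (μ : ℝ) : 0 ≤ P φ μ := by
  have h1 := h.lp_le_P μ le_rfl
  have h2 := h.lp_nonneg μ le_rfl
  nlinarith

/-- the point with coordinates `a * k c + b` -/
noncomputable def vec (f : Fin 3 → ℝ) : Space := WithLp.toLp 2 f

@[simp] lemma vec_apply (f : Fin 3 → ℝ) (c : Fin 3) : vec f c = f c := rfl

lemma gc_shift_box (φ : ℝ → ℝ) (μ l : ℝ) (f : Fin 3 → ℝ) :
    gc {x : Space | ∀ c, f c ≤ x c ∧ x c ≤ f c + l} (pairH μ (rad φ)) = Xi φ μ l := by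
  unfold Xi
  rw [← gc_translate (measurableSet_box l) (-vec f) μ (ψ := rad φ)
    (fun x y => by simp [rad])]
  congr 1
  ext x
  simp only [box, Set.mem_ofPred_eq, PiLp.add_apply, PiLp.neg_apply, vec_apply]
  refine forall_congr' (fun c => ?_)
  constructor <;> rintro ⟨h1, h2⟩ <;> constructor <;> linarith

lemma Good.super (h : Good φ B) (μ : ℝ) {l L : ℝ} (hl : 0 ≤ l) (k : ℕ) (hk : k * (l + 3) ≤ L) :
    (k : ℝ) ^ 3 * lp φ μ l ≤ lp φ μ L := by
  have hL : 0 ≤ L := le_trans (by positivity) hk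
  set A : (Fin 3 → ℕ) → Set Space := fun m =>
    {x : Space | ∀ c, (l + 3) * m c ≤ x c ∧ x c ≤ (l + 3) * m c + l} with hA
  set F : Finset (Fin 3 → ℕ) := Fintype.piFinset (fun _ => Finset.range k) with hF
  have hAm : ∀ m, MeasurableSet (A m) := fun m =>
    measurableSet_rect (fun c => Set.Icc ((l + 3) * m c) ((l + 3) * m c + l))
      (fun _ => measurableSet_Icc)
  have hsep : ∀ m m', m ≠ m' → ∀ x ∈ A m, ∀ y ∈ A m', 3 ≤ dist x y := by
    intro m m' hne x hx y hy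
    obtain ⟨c, hc⟩ := Function.ne_iff.mp hne
    refine le_trans ?_ (PiLp.dist_apply_le x y c)
    rw [Real.dist_eq]
    obtain ⟨h1, h2⟩ := hx c
    obtain ⟨h3, h4⟩ := hy c
    rcases lt_or_gt_of_ne hc with hlt | hlt
    · have : (m c : ℝ) + 1 ≤ m' c := by exact_mod_cast hlt
      rw [le_abs]; right; nlinarith
    · have : (m' c : ℝ) + 1 ≤ m c := by exact_mod_cast hlt
      rw [le_abs]; left; nlinarith
  have h1 := gc_biUnion_ge F A hAm μ (measurable_rad h.meas)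
    (fun m m' hne => by
      rw [Set.disjoint_left]
      intro x hx hx'
      have := hsep m m' hne x hx x hx'
      rw [dist_self] at this
      linarith)
    (fun m m' hne x hx y hy => h.attr _ (hsep m m' hne x hx y hy))
  have h2 : (⋃ m ∈ F, A m) ⊆ box L := by
    intro x hx
    simp only [Set.mem_iUnion] at hx
    obtain ⟨m, hm, hx⟩ := hx
    intro c
    obtain ⟨h3, h4⟩ := hx c
    have h5 : m c < k := Finset.mem_range.mp (Fintype.mem_piFinset.mp hm c)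
    have h6 : (m c : ℝ) + 1 ≤ k := by exact_mod_cast h5
    constructor
    · exact le_trans (by positivity) h3
    · nlinarith
  have h3 : ∀ m, gc (A m) (pairH μ (rad φ)) = Xi φ μ l := fun m =>
    gc_shift_box φ μ l (fun c => (l + 3) * m c)
  simp_rw [h3] at h1
  rw [Finset.prod_const, hF, Fintype.card_piFinset, Finset.prod_const, Finset.card_range,
    Finset.card_univ, Fintype.card_fin, h.Xi_eq μ hl, ← ENNReal.ofReal_pow (Real.exp_pos _).le,
    ← Real.exp_nat_mul] at h1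
  rw [h.le_lp_iff μ hL]
  push_cast at h1
  exact h1.trans (gc_mono_set h2 _)

lemma tendsto_cube (a b : ℝ) :
    Tendsto (fun L : ℝ => (a * L + b) ^ 3 / L ^ 3) atTop (𝓝 (a ^ 3)) := by
  have h1 : Tendsto (fun L : ℝ => a + b / L) atTop (𝓝 (a + 0)) :=
    tendsto_const_nhds.add (tendsto_const_nhds.div_atTop tendsto_id)
  rw [add_zero] at h1
  refine (h1.pow 3).congr' ?_
  filter_upwards [eventually_gt_atTop 0] with L hL
  field_simp

lemma Good.tendsto_P (h : Good φ B) (μ : ℝ) :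
    Tendsto (fun L : ℝ => lp φ μ L / L ^ 3) atTop (𝓝 (P φ μ)) := by
  rw [tendsto_order]
  constructor
  · intro c hc
    obtain ⟨l, hl⟩ := exists_lt_of_lt_ciSup hc
    have hl0 : (0 : ℝ) ≤ l := l.2
    have hl3 : (0 : ℝ) < l + 3 := by linarith
    have h1 := (tendsto_cube (1 / (l + 3)) (-1)).mul_const (lp φ μ l)
    have h2 : c < (1 / ((l : ℝ) + 3)) ^ 3 * lp φ μ l := by
      refine hl.trans_le (le_of_eq ?_)
      field_simp
    filter_upwards [h1.eventually (lt_mem_nhds h2), eventually_ge_atTop ((l : ℝ) + 3)] with L hL1 hL2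
    refine hL1.trans_le ?_
    have hL0 : 0 < L := by linarith
    have h3 := h.super μ hl0 (L := L) ⌊L / (l + 3)⌋₊ (by
      have := Nat.floor_le (div_nonneg hL0.le hl3.le)
      rwa [le_div_iff₀ hl3] at this)
    rw [div_mul_eq_mul_div]
    refine div_le_div_of_nonneg_right (le_trans ?_ h3) (by positivity)
    refine mul_le_mul_of_nonneg_right ?_ (h.lp_nonneg μ hl0)
    have h4 := Nat.lt_floor_add_one (L / (l + 3))
    have h5 : 1 ≤ L / (l + 3) := by rw [le_div_iff₀ hl3]; linarith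
    have h6 : 1 / ((l : ℝ) + 3) * L = L / (l + 3) := by ring
    exact pow_le_pow_left₀ (by linarith) (by linarith) 3
  · intro c hc
    have h1 := (tendsto_cube 1 3).mul_const (P φ μ)
    rw [one_pow, one_mul] at h1
    filter_upwards [h1.eventually (gt_mem_nhds hc), eventually_gt_atTop 0] with L hL1 hL2
    refine lt_of_le_of_lt ?_ hL1
    rw [div_mul_eq_mul_div, one_mul]
    exact div_le_div_of_nonneg_right (h.lp_le_P μ hL2.le) (by positivity)

lemma pairSum_rad_lin (φ₀ φ₁ : ℝ → ℝ) (a b : ℝ) {N : ℕ} (x : Fin N → Space) :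
    pairSum (rad (fun r => a * φ₀ r + b * φ₁ r)) x =
      a * pairSum (rad φ₀) x + b * pairSum (rad φ₁) x := by
  unfold pairSum rad
  simp_rw [Finset.sum_add_distrib, Finset.mul_sum]

lemma pairSum_rad_mono {φ₀ φ₁ : ℝ → ℝ} (h : ∀ r, 0 ≤ r → φ₀ r ≤ φ₁ r) {N : ℕ}
    (x : Fin N → Space) : pairSum (rad φ₀) x ≤ pairSum (rad φ₁) x :=
  Finset.sum_le_sum (fun _ _ => Finset.sum_le_sum (fun _ _ => h _ dist_nonneg))

/-- joint convexity and monotonicity of the pressure -/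
lemma P_holder {φ₀ φ₁ φ : ℝ → ℝ} {B₀ B₁ B : ℝ} (h₀ : Good φ₀ B₀) (h₁ : Good φ₁ B₁) (h : Good φ B)
    {l μ₀ μ₁ μ : ℝ} (hl0 : 0 ≤ l) (hl1 : l ≤ 1) (hμ : μ ≤ (1 - l) * μ₀ + l * μ₁)
    (hφ : ∀ r, 0 ≤ r → (1 - l) * φ₀ r + l * φ₁ r ≤ φ r) :
    P φ μ ≤ (1 - l) * P φ₀ μ₀ + l * P φ₁ μ₁ := by
  refine le_of_tendsto_of_tendsto (h.tendsto_P μ)
    (((h₀.tendsto_P μ₀).const_mul (1 - l)).add ((h₁.tendsto_P μ₁).const_mul l)) ?_
  filter_upwards [eventually_gt_atTop 0] with L hL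
  have key : lp φ μ L ≤ (1 - l) * lp φ₀ μ₀ L + l * lp φ₁ μ₁ L := by
    rw [h.lp_le_iff μ hL.le]
    refine gc_holder (measurableSet_box L) (measurable_pairH μ₀ (measurable_rad h₀.meas))
      (measurable_pairH μ₁ (measurable_rad h₁.meas)) hl0 hl1 (h₀.Xi_eq μ₀ hL.le).le
      (h₁.Xi_eq μ₁ hL.le).le (fun N x _ => ?_)
    have h1 := pairSum_rad_mono hφ x
    rw [pairSum_rad_lin] at h1
    have h2 : μ * N ≤ ((1 - l) * μ₀ + l * μ₁) * N :=
      mul_le_mul_of_nonneg_right hμ (Nat.cast_nonneg N)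
    unfold pairH
    linarith
  have hL3 : 0 < L ^ 3 := by positivity
  calc lp φ μ L / L ^ 3 ≤ ((1 - l) * lp φ₀ μ₀ L + l * lp φ₁ μ₁ L) / L ^ 3 :=
        div_le_div_of_nonneg_right key hL3.le
    _ = _ := by ring

lemma Good.convexOn_P (h : Good φ B) : ConvexOn ℝ Set.univ (P φ) := by
  refine ⟨convex_univ, fun x _ y _ a b ha hb hab => ?_⟩
  have hab' : a = 1 - b := by linarith
  subst hab'
  simp only [smul_eq_mul]
  exact P_holder h h h hb (by linarith) le_rfl (fun r _ => le_of_eq (by ring))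

lemma P_mono {φ₀ φ : ℝ → ℝ} {B₀ B : ℝ} (h₀ : Good φ₀ B₀) (h : Good φ B) {μ₀ μ : ℝ} (hμ : μ ≤ μ₀)
    (hφ : ∀ r, 0 ≤ r → φ₀ r ≤ φ r) : P φ μ ≤ P φ₀ μ₀ := by
  have := P_holder h₀ h₀ h (l := 0) (μ₀ := μ₀) (μ₁ := μ₀) (μ := μ) le_rfl zero_le_one
    (by linarith) (fun r hr => by linarith [hφ r hr])
  linarith

lemma Good.monotone_P (h : Good φ B) : Monotone (P φ) := fun _ _ hab =>
  P_mono h h hab (fun _ _ => le_rfl)

lemma Good.continuous_P (h : Good φ B) : Continuous (P φ) := by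
  have := h.convexOn_P.continuousOn isOpen_univ
  exact continuousOn_univ.mp this

lemma Good.P_ge (h : Good φ B) (μ : ℝ) : μ / 64 ≤ P φ μ := by
  have h1 := h.lp_le_P μ zero_le_one
  have h2 : μ ≤ lp φ μ 1 := by
    rw [h.le_lp_iff μ zero_le_one]
    have := term_le_gc (box 1) (pairH μ (rad φ)) 1
    rw [term_pairH_one, volume_box zero_le_one] at this
    simpa [Xi] using this
  norm_num at h1
  linarith

end Vale.Agent.P171
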