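import Vale.Agent.P171.KacUpper
import Vale.Agent.P171.Kink

/-!
The sequence of scales and the inductive construction.
-/

namespace Vale.Agent.P171

open MeasureTheory Filter Topology Finset Metric
open scoped ENNReal Classical

/-- strength of the first attraction -/
noncomputable def al : ℝ := 131072

/-- strength of the core -/
noncomputable def Kc : ℝ := 100 * al

/-- a uniform bound for all pressures used -/
noncomputable def C0 : ℝ := Real.exp (4 * al + 1 + Kc / 2)

/-- base of the scales -/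
noncomputable def y0 : ℕ := ⌈12 * C0⌉₊ + 16

/-- the scales -/
noncomputable def Y (k : ℕ) : ℝ := (y0 : ℝ) ^ (2 ^ k)

/-- the couplings -/
noncomputable def cp (k : ℕ) : ℝ := al * Y 0 ^ 2 / Y k ^ 2

/-- the radii -/
noncomputable def Rk (k : ℕ) : ℝ := Y k ^ 28 / 2

lemma al_pos : 0 < al := by unfold al; norm_num

lemma Kc_nonneg : 0 ≤ Kc := by unfold Kc; linarith [al_pos]

lemma C0_ge : 1 ≤ C0 := Real.one_le_exp (by linarith [al_pos, Kc_nonneg])

lemma Y_succ (k : ℕ) : Y (k + 1) = Y k ^ 2 := by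
  unfold Y; rw [pow_succ, pow_mul]

lemma Y_zero_ge : 16 ≤ Y 0 := by
  unfold Y y0
  simp only [pow_zero, pow_one]
  push_cast
  linarith [(Nat.cast_nonneg ⌈12 * C0⌉₊ : (0 : ℝ) ≤ _)]

lemma Y_zero_ge' : 12 * C0 ≤ Y 0 := by
  unfold Y y0
  simp only [pow_zero, pow_one]
  push_cast
  linarith [Nat.le_ceil (12 * C0)]

lemma Y_ge (k : ℕ) : 16 ≤ Y k := by
  induction k with
  | zero => exact Y_zero_ge
  | succ k ih => rw [Y_succ]; nlinarith

lemma Y_pos (k : ℕ) : 0 < Y k := by linarith [Y_ge k]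

lemma Y_mono : Monotone Y := monotone_nat_of_le_succ (fun k => by
  rw [Y_succ]; nlinarith [Y_ge k])

lemma Y_ge_pow (k : ℕ) : 2 * 2 ^ k ≤ Y k := by
  induction k with
  | zero => linarith [Y_zero_ge]
  | succ k ih => rw [Y_succ, pow_succ]; nlinarith [Y_ge k]

lemma cp_pos (k : ℕ) : 0 < cp k := by
  unfold cp; have := al_pos; have := Y_pos 0; have := Y_pos k; positivity

lemma cp_zero : cp 0 = al := by
  unfold cp; have := Y_pos 0; field_simp

lemma cp_succ (k : ℕ) : cp (k + 1) = cp k / Y k ^ 2 := by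
  unfold cp; rw [Y_succ]; have := Y_pos k; field_simp

lemma cp_le (k : ℕ) : cp k ≤ al * (1 / 2) ^ k := by
  induction k with
  | zero => simp [cp_zero]
  | succ k ih =>
    rw [cp_succ, pow_succ (1 / 2 : ℝ)]
    have h1 : 2 ≤ Y k ^ 2 := by nlinarith [Y_ge k]
    have h2 : cp k / Y k ^ 2 ≤ cp k / 2 := div_le_div_of_nonneg_left (cp_pos k).le two_pos h1
    linarith

lemma cp_le_al (k : ℕ) : cp k ≤ al :=
  (cp_le k).trans (mul_le_of_le_one_right al_pos.le (pow_le_one₀ (by norm_num) (by norm_num)))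

lemma sum_cp_le (n m : ℕ) : ∑ k ∈ range m, cp (k + n) ≤ 2 * al * (1 / 2) ^ n := by
  calc ∑ k ∈ range m, cp (k + n) ≤ ∑ k ∈ range m, al * (1 / 2) ^ n * (1 / 2) ^ k := by
        refine Finset.sum_le_sum (fun k _ => (cp_le _).trans (le_of_eq ?_))
        rw [pow_add]; ring
    _ ≤ al * (1 / 2) ^ n * 2 := by
        rw [← Finset.mul_sum]
        exact mul_le_mul_of_nonneg_left (sum_geometric_two_le m) (by have := al_pos; positivity)
    _ = _ := by ring

lemma summable_cp : Summable cp :=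
  Summable.of_nonneg_of_le (fun k => (cp_pos k).le) cp_le
    (summable_geometric_two.mul_left al)

lemma Rk_ge (k : ℕ) : 2 ≤ Rk k := by
  unfold Rk
  have h1 : (16 : ℝ) ≤ Y k ^ 28 := (Y_ge k).trans (le_self_pow₀ (by linarith [Y_ge k]) (by norm_num))
  linarith

lemma Rk_pos (k : ℕ) : 0 < Rk k := by linarith [Rk_ge k]

lemma one_le_vB {R : ℝ} (hR : 2 ≤ R) : 1 ≤ vB R := by
  unfold vB
  have h1 : (1 : ℝ) ≤ R ^ 3 := one_le_pow₀ (by linarith)
  nlinarith [Real.pi_gt_three]

lemma kern_le_one {R : ℝ} (hR : 2 ≤ R) (r : ℝ) : kern R r ≤ 1 :=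
  (kern_le (by linarith) r).trans (by rw [div_le_one (vB_pos (by linarith))]; exact one_le_vB hR)

/-- partial sums of the attraction -/
noncomputable def psi (n : ℕ) (r : ℝ) : ℝ := ∑ k ∈ range n, cp k * kern (Rk k) r

/-- tails of the attraction -/
noncomputable def tail (n : ℕ) (r : ℝ) : ℝ := ∑' k, cp (k + n) * kern (Rk (k + n)) r

lemma term_nonneg (k : ℕ) (r : ℝ) : 0 ≤ cp k * kern (Rk k) r :=
  mul_nonneg (cp_pos k).le (kern_nonneg _ _)

lemma term_le (k : ℕ) (r : ℝ) : cp k * kern (Rk k) r ≤ cp k :=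
  mul_le_of_le_one_right (cp_pos k).le (kern_le_one (Rk_ge k) r)

lemma summable_term (r : ℝ) : Summable (fun k => cp k * kern (Rk k) r) :=
  Summable.of_nonneg_of_le (fun k => term_nonneg k r) (fun k => term_le k r) summable_cp

lemma continuous_psi (n : ℕ) : Continuous (psi n) :=
  continuous_finsetSum _ (fun k _ => (continuous_kern (Rk_pos k).le).const_mul _)

lemma continuous_tail (n : ℕ) : Continuous (tail n) := by
  refine continuous_tsum (u := fun k => cp (k + n))
    (fun k => (continuous_kern (Rk_pos _).le).const_mul _)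
    ((summable_nat_add_iff n).mpr summable_cp) (fun k r => ?_)
  rw [Real.norm_of_nonneg (term_nonneg _ r)]
  exact term_le _ r

lemma psi_nonneg (n : ℕ) (r : ℝ) : 0 ≤ psi n r := Finset.sum_nonneg (fun k _ => term_nonneg k r)

lemma tail_nonneg (n : ℕ) (r : ℝ) : 0 ≤ tail n r := tsum_nonneg (fun _ => term_nonneg _ r)

lemma psi_add_tail (n : ℕ) (r : ℝ) : psi n r + tail n r = tail 0 r :=
  (summable_term r).sum_add_tsum_nat_add n

lemma budget_partial (n m : ℕ) :
    Budget (fun r => ∑ k ∈ range m, cp (k + n) * kern (Rk (k + n)) r)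
      (4 * ∑ k ∈ range m, cp (k + n)) := by
  induction m with
  | zero => intro N x; simp [pairSum, rad]
  | succ m ih =>
    have := ih.add (budget_kern (Rk_ge (m + n))) zero_le_one (cp_pos (m + n)).le
    simp only [one_mul] at this
    simp_rw [Finset.sum_range_succ]
    exact this.mono (le_of_eq (by ring))

lemma budget_psi (n : ℕ) : Budget (psi n) (8 * al) := by
  have h := budget_partial 0 n
  have h2 := sum_cp_le 0 n
  exact Budget.mono h (by simp only [pow_zero] at h2; linarith)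

lemma budget_tail (n : ℕ) : Budget (tail n) (8 * al * (1 / 2) ^ n) := by
  intro N x
  have h1 : Tendsto (fun m => pairSum (rad (fun r => ∑ k ∈ range m,
      cp (k + n) * kern (Rk (k + n)) r)) x) atTop (𝓝 (pairSum (rad (tail n)) x)) := by
    unfold pairSum rad
    refine tendsto_finsetSum _ (fun i _ => tendsto_finsetSum _ (fun j _ => ?_))
    exact (((summable_nat_add_iff n).mpr (summable_term _)).hasSum.tendsto_sum_nat)
  refine le_of_tendsto' h1 (fun m => ?_)
  exact ((budget_partial n m).mono (by linarith [sum_cp_le n m])) N x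

lemma psi_eq_zero (n : ℕ) {r : ℝ} (hr : Y n ^ 14 ≤ r) : psi n r = 0 := by
  refine Finset.sum_eq_zero (fun k hk => ?_)
  have h1 : Y (k + 1) ≤ Y n := Y_mono (Finset.mem_range.mp hk)
  have h2 : Y (k + 1) ^ 14 ≤ Y n ^ 14 := pow_le_pow_left₀ (Y_pos _).le h1 14
  rw [Y_succ, ← pow_mul] at h2
  rw [kern_eq_zero, mul_zero]
  · unfold Rk; norm_num at h2; linarith
  · exact le_trans (pow_pos (Y_pos n) 14).le hr

/-- the truncated potentials -/
noncomputable def phi (n : ℕ) : ℝ → ℝ := fun r => Kc * core r - psi n r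

/-- the potential -/
noncomputable def phiInf : ℝ → ℝ := fun r => Kc * core r - tail 0 r

lemma good_phi (n : ℕ) : Good (phi n) (Kc / 2) :=
  good_of_budget Kc_nonneg (continuous_psi n).measurable (psi_nonneg n) (budget_psi n)
    (by unfold Kc; linarith [al_pos])

lemma good_phiInf : Good phiInf (Kc / 2) :=
  good_of_budget Kc_nonneg (continuous_tail 0).measurable (tail_nonneg 0) (budget_tail 0)
    (by unfold Kc; simp only [pow_zero]; linarith [al_pos])

/-- the slopes jump at least by this much at step `n` -/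
noncomputable def Dl (n : ℕ) : ℝ := 1 / 256 + 1 / 256 * (1 / 2) ^ n

lemma shift_le (n : ℕ) : cp n / (2 * vB (Rk n)) ≤ cp n := by
  refine div_le_self (cp_pos n).le ?_
  linarith [one_le_vB (Rk_ge n)]

lemma step_grow (n : ℕ) {μ : ℝ} (hμ : μ ≤ 2 * al) (s : ℝ) :
    P (phi n) (μ + s) ≤ C0 + s ^ 2 / (4 * cp n) := by
  have hb := (budget_psi n).add (budget_kern (Rk_ge n)) zero_le_one
    (by linarith [cp_pos n] : 0 ≤ 2 * cp n)
  have hg := good_of_budget Kc_nonneg (((continuous_psi n).measurable.const_mul 1).add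
    ((continuous_kern (Rk_pos n).le).measurable.const_mul (2 * cp n)))
    (fun r => add_nonneg (by simpa using psi_nonneg n r)
      (mul_nonneg (by linarith [cp_pos n]) (kern_nonneg _ _))) hb
    (by unfold Kc; linarith [al_pos, cp_le_al n])
  have h1 := kac_lower (good_phi n) hg (by linarith [cp_pos n] : 0 < 2 * cp n) (Rk_pos n)
    (fun r _ => by simp only [phi, Pi.add_apply]; linarith) μ s
  have h2 := hg.P_le (μ + 2 * cp n / (2 * vB (Rk n)))
  have h3 : Real.exp (μ + 2 * cp n / (2 * vB (Rk n)) + Kc / 2) ≤ C0 := by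
    refine Real.exp_le_exp.mpr ?_
    have := shift_le n
    rw [mul_div_assoc]
    linarith [cp_le_al n]
  have h4 : s ^ 2 / (2 * (2 * cp n)) = s ^ 2 / (4 * cp n) := by ring
  linarith

lemma phi_succ (n : ℕ) : phi (n + 1) = fun r => Kc * core r - (psi n r + cp n * kern (Rk n) r) := by
  funext r; simp [phi, psi, Finset.sum_range_succ]

lemma step_up (n : ℕ) {μ T : ℝ} (hμ : μ ≤ 2 * al) (hT0 : 0 ≤ T) (hTC : T ≤ C0)
    (hT : ∀ s, P (phi n) (μ + s) - s ^ 2 / (2 * cp n) ≤ T) :
    P (phi (n + 1)) (μ + cp n / (2 * vB (Rk n))) ≤ T + 3 * C0 / Y n ^ 6 := by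
  have hY := Y_ge n
  have hY0 := Y_pos n
  have hJ : (((4 * (y0 ^ 2 ^ n) ^ 6 : ℕ)) : ℝ) = 4 * Y n ^ 6 := by
    unfold Y; push_cast; ring
  have h6 : (16 : ℝ) ≤ Y n ^ 6 := hY.trans (le_self_pow₀ (by linarith) (by norm_num))
  have h14 : (16 : ℝ) ≤ Y n ^ 14 := hY.trans (le_self_pow₀ (by linarith) (by norm_num))
  have hg := good_phi (n + 1)
  rw [phi_succ] at hg ⊢
  have h := kac_upper (J := 4 * (y0 ^ 2 ^ n) ^ 6) (M := Y n ^ 6) (D := Y n ^ 14) (μ := μ) Kc_nonneg
    (continuous_psi n).measurable (psi_nonneg n) (budget_psi n) (by linarith [al_pos]) (cp_pos n)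
    (by unfold Kc; linarith [al_pos, cp_le_al n]) (by positivity) (fun r hr => psi_eq_zero n hr)
    (by linarith) (by rw [hJ]; linarith) (by rw [hJ]; nlinarith) (Rk_pos n) (by
      rw [hJ]
      have e1 : 2 * (4 * Y n ^ 6 * Y n ^ 14) / Rk n = 16 / Y n ^ 8 := by
        unfold Rk; field_simp; ring
      rw [e1]
      have e2 : 16 / Y n ^ 8 ≤ 1 / (2 * Y n ^ 6) / 7 := by
        rw [div_div, div_le_div_iff₀ (by positivity) (by positivity)]
        have : Y n ^ 8 = Y n ^ 2 * Y n ^ 6 := by ring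
        rw [this]
        have h2 : 256 ≤ Y n ^ 2 := by nlinarith
        nlinarith
      have e3 : 0 ≤ 16 / Y n ^ 8 := by positivity
      have e4 : 1 / (2 * Y n ^ 6) ≤ 1 := by rw [div_le_one (by positivity)]; linarith
      nlinarith [mul_nonneg e3 e3, mul_nonneg (mul_nonneg e3 e3) e3]) hg hT0 hT
  refine h.trans ?_
  have h3 : Real.exp (μ + 1 + Kc / 2) ≤ C0 := Real.exp_le_exp.mpr (by linarith [al_pos])
  gcongr
  linarith [C0_ge]

lemma exists_kink (n : ℕ) : ∃ μ, μ ≤ ∑ k ∈ range n, cp k ∧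
    Dl n * (cp n / 512) ≤ P (phi n) (μ + cp n / 512) + P (phi n) (μ - cp n / 512) -
      2 * P (phi n) μ := by
  induction n with
  | zero =>
    refine ⟨0, by simp, ?_⟩
    have hg : Good (phi 0) 0 :=
      ⟨(good_phi 0).meas, fun N x => by
        have : 0 ≤ pairSum (rad (phi 0)) x :=
          Finset.sum_nonneg (fun _ _ => Finset.sum_nonneg (fun _ _ => by
            simp only [rad, phi, psi, Finset.sum_range_zero, sub_zero]
            exact mul_nonneg Kc_nonneg (core_nonneg _)))
        simpa using this, (good_phi 0).attr⟩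
    have h1 := hg.P_le 0
    have h2 := hg.P_ge (0 + cp 0 / 512)
    have h3 := hg.P_nonneg (0 - cp 0 / 512)
    simp only [add_zero, Real.exp_zero] at h1
    have h4 : cp 0 / 512 = 256 := by rw [cp_zero]; unfold al; norm_num
    rw [h4] at h2 h3 ⊢
    unfold Dl
    norm_num at h2 h3 ⊢
    linarith
  | succ n ih =>
    obtain ⟨ν, hν, hk⟩ := ih
    have hν' : ν ≤ 2 * al := by
      have := sum_cp_le 0 n
      simp only [add_zero, pow_zero, mul_one] at this
      linarith
    have hDl : 1 / 256 ≤ Dl n := by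
      unfold Dl; have : (0 : ℝ) ≤ 1 / 256 * (1 / 2) ^ n := by positivity
      linarith
    obtain ⟨μ, hμ, hq⟩ := kink_step (p := P (phi n))
      (q := fun μ => P (phi (n + 1)) (μ + cp n / (2 * vB (Rk n)))) (η := 3 * C0 / Y n ^ 6)
      (good_phi n).convexOn_P (good_phi n).monotone_P (good_phi n).P_nonneg (cp_pos n)
      (by linarith [C0_ge] : 0 ≤ C0) (by linarith [cp_pos n] : 0 < cp n / 512) (by linarith)
      (by nlinarith [cp_pos n]) hk (fun μ hμ s => step_grow n (hμ.trans hν') s)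
      (fun μ s => kac_lower (good_phi n) (good_phi (n + 1)) (cp_pos n) (Rk_pos n)
        (fun r _ => by rw [phi_succ]; simp only [phi]; linarith) μ s)
      (fun μ hμ T hT0 hTC hT => step_up n (hμ.trans hν') hT0 hTC hT)
    refine ⟨μ + cp n / (2 * vB (Rk n)), ?_, ?_⟩
    · rw [Finset.sum_range_succ]; linarith [shift_le n]
    · have h1 := hq (cp (n + 1) / 512) (by linarith [cp_pos (n + 1)])
      have e1 : μ + cp (n + 1) / 512 + cp n / (2 * vB (Rk n)) =
          μ + cp n / (2 * vB (Rk n)) + cp (n + 1) / 512 := by ring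
      have e2 : μ - cp (n + 1) / 512 + cp n / (2 * vB (Rk n)) =
          μ + cp n / (2 * vB (Rk n)) - cp (n + 1) / 512 := by ring
      simp only [e1, e2] at h1
      refine le_trans ?_ h1
      have hY := Y_ge n
      have hY0 := Y_pos n
      have hc := cp_pos (n + 1)
      have f1 : (cp (n + 1) / 512) ^ 2 / cp n = 1 / (512 * Y n ^ 2) * (cp (n + 1) / 512) := by
        rw [cp_succ]; have := cp_pos n; field_simp
      have f2 : 2 * (3 * C0 / Y n ^ 6) ≤ 1 / (512 * Y n ^ 2) * (cp (n + 1) / 512) := by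
        have g1 : cp (n + 1) = al * Y 0 ^ 2 / Y n ^ 4 := by
          unfold cp; rw [Y_succ]; ring
        have g2 : 1 / (512 * Y n ^ 2) * (cp (n + 1) / 512) = Y 0 ^ 2 / 2 / Y n ^ 6 := by
          rw [g1]; unfold al; field_simp; ring
        rw [g2, ← mul_div_assoc]
        refine div_le_div_of_nonneg_right ?_ (by positivity)
        nlinarith [Y_zero_ge, Y_zero_ge', C0_ge]
      have f3 : 2 * (1 / (512 * Y n ^ 2)) ≤ 1 / 512 * (1 / 2) ^ n := by
        have g1 : 2 * 2 ^ n ≤ Y n ^ 2 := by nlinarith [Y_ge_pow n]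
        rw [one_div_pow, mul_one_div, mul_one_div, div_div,
          div_le_div_iff₀ (by positivity) (by positivity)]
        linarith
      have f4 : Dl (n + 1) = Dl n - 1 / 512 * (1 / 2) ^ n := by
        unfold Dl; rw [pow_succ]; ring
      have f5 := mul_le_mul_of_nonneg_right f3 (by linarith : 0 ≤ cp (n + 1) / 512)
      rw [f4, f1]
      linarith

end Vale.Agent.P171
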